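import Vale.Agent.Lib.P079.Minimal

/-!
# Reflexive spaces: bounded sets have the intersection property for closed convex sets
-/

namespace Vale.Agent.Lib.P079

open Set Filter Topology

variable {X : Type*} [NormedAddCommGroup X] [NormedSpace ℝ X]

lemma isClosed_toWeakSpace_image {s : Set X} (hc : IsClosed s) (hv : Convex ℝ s) :
    IsClosed (toWeakSpace ℝ X '' s) := by
  have := hv.toWeakSpace_closure ℝ
  rw [hc.closure_eq] at this
  rw [this]
  exact isClosed_closure

lemma cip_of_isCompact_weak {C : Set X} (hC : IsCompact (closure (toWeakSpace ℝ X '' C))) :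
    CIP C := by
  intro S hS hdir hall
  have : Nonempty S := hS.to_subtype
  have := IsCompact.nonempty_iInter_of_directed_nonempty_isCompact_isClosed
    (fun s : S => toWeakSpace ℝ X '' (s : Set X)) ?_ ?_ ?_ ?_
  · obtain ⟨q, hq⟩ := this
    rw [mem_iInter] at hq
    refine ⟨(toWeakSpace ℝ X).symm q, fun s hs => ?_⟩
    obtain ⟨p, hp, rfl⟩ := hq ⟨s, hs⟩
    simpa using hp
  · intro s s'
    obtain ⟨u, hu, h1, h2⟩ := hdir s.1 s.2 s'.1 s'.2
    exact ⟨⟨u, hu⟩, image_mono h1, image_mono h2⟩
  · intro s
    exact (hall s.1 s.2).1.image _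
  · intro s
    refine hC.of_isClosed_subset (isClosed_toWeakSpace_image (hall s.1 s.2).2.1
      (hall s.1 s.2).2.2.1) ?_
    exact (image_mono (hall s.1 s.2).2.2.2).trans subset_closure
  · intro s
    exact isClosed_toWeakSpace_image (hall s.1 s.2).2.1 (hall s.1 s.2).2.2.1

lemma cip_of_reflexive (hrefl : Function.Surjective (NormedSpace.inclusionInDoubleDual ℝ X))
    {C : Set X} (hbd : Bornology.IsBounded C) : CIP C := by
  apply cip_of_isCompact_weak
  apply NormedSpace.isCompact_closure_of_isBounded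
  · rwa [(toWeakSpace ℝ X).injective.preimage_image]
  · intro φ _
    obtain ⟨x, hx⟩ := hrefl (WeakDual.toStrongDual φ)
    refine ⟨toWeakSpace ℝ X x, ?_⟩
    rw [NormedSpace.inclusionInDoubleDualWeak_apply]
    simp [hx]

end Vale.Agent.Lib.P079
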