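import Vale.Agent.Lib.P079.Blocks
import Vale.Agent.Lib.P079.Reflexive

/-!
# Fixed points in spaces with a suppression unconditional basis and no uniform copies of `ℓ₁ᵏ`
-/

namespace Vale.Agent.Lib.P079

open Set Filter Topology

variable {X : Type*} [NormedAddCommGroup X] [NormedSpace ℝ X]

/-- index selection: the `i`-th pair in the `j`-th group, first or second element. -/
def sel (k : ℕ) (σ : Fin k → Bool) (i : Fin k) (j : ℕ) : ℕ :=
  2 * (k * j + i) + (σ i).toNat

lemma sel_ge {k : ℕ} (hk : 0 < k) (σ : Fin k → Bool) (i : Fin k) (j : ℕ) : j ≤ sel k σ i j := by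
  unfold sel
  have : j ≤ k * j := Nat.le_mul_of_pos_left j hk
  omega

lemma sel_tendsto {k : ℕ} (hk : 0 < k) (σ : Fin k → Bool) (i : Fin k) :
    Tendsto (sel k σ i) atTop atTop :=
  tendsto_atTop_mono (sel_ge hk σ i) tendsto_id

lemma sel_ne {k : ℕ} (σ τ : Fin k → Bool) {i i' : Fin k} (j : ℕ) (h : i ≠ i') :
    sel k σ i j ≠ sel k τ i' j := by
  unfold sel
  have h1 : (i : ℕ) ≠ i' := fun h' => h (Fin.ext h')
  have h2 : (σ i).toNat ≤ 1 := Bool.toNat_le _
  have h3 : (τ i').toNat ≤ 1 := Bool.toNat_le _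
  omega

lemma sel_injective {k : ℕ} (σ : Fin k → Bool) (j : ℕ) :
    Function.Injective (fun i => sel k σ i j) := by
  intro i i' h
  by_contra hne
  exact sel_ne σ σ j hne h

lemma sel_ne_not {k : ℕ} (σ : Fin k → Bool) (i i' : Fin k) (j : ℕ) :
    sel k σ i j ≠ sel k (fun l => !σ l) i' j := by
  by_cases h : i = i'
  · subst h
    unfold sel
    cases hσ : σ i <;> simp [hσ]
  · exact sel_ne _ _ j h

/-- **Main theorem (set version).**  Let `X` have a Schauder basis with suppression constant `cs`.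
Let `C` be a nonempty closed bounded convex set with the intersection property (e.g. weakly
compact).  Assume that normalised differences of points of `C` are uniformly non-`ℓ₁ᵏ` with
constant `δ`, and `cs ((k - 1) + cs (1 - δ)) < k`.  Then every nonexpansive self-map of `C` has a
fixed point. -/
theorem exists_fixedPoint_of_supp {b : SchauderBasis ℝ X} {cs : ℝ} (hs : Supp b cs)
    (hcs : 0 ≤ cs) {k : ℕ} {δ : ℝ} (hk : 0 < k)
    {C : Set X}
    (hB : ∀ x : Fin k → X, (∀ i, ‖x i‖ ≤ 1) → (∀ i, ∃ a ∈ C, ∃ a' ∈ C, ∃ t : ℝ, x i = t • (a - a')) →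
      ∃ ε : Fin k → ℝ, (∀ i, ε i = 1 ∨ ε i = -1) ∧ ‖∑ i, ε i • x i‖ ≤ k * (1 - δ))
    (hcond : cs * (((k : ℝ) - 1) + cs * (1 - δ)) < k)
    (hCIP : CIP C) (hne : C.Nonempty) (hcl : IsClosed C) (hbd : Bornology.IsBounded C)
    (hcv : Convex ℝ C) {T : X → X} (hmaps : MapsTo T C C) (hNE : NE T C) :
    ∃ x ∈ C, T x = x := by
  by_contra hno
  push Not at hno
  obtain ⟨K, hKC, hK⟩ := exists_minInv hCIP ⟨hne, hcl, hcv, hmaps⟩
  have hTK : NE T K := hNE.mono hKC
  have hCK : CIP K := hCIP.mono hKC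
  have hbdK : Bornology.IsBounded K := hbd.subset hKC
  have hkpos : (0 : ℝ) < k := by positivity
  set d := Metric.diam K with hddef
  have hd : ∀ u ∈ K, ∀ v ∈ K, ‖u - v‖ ≤ d := fun u hu v hv => by
    rw [← dist_eq_norm]; exact Metric.dist_le_diam_of_mem hbdK hu hv
  obtain ⟨p, hp⟩ := hK.1.nonempty
  have hdpos : 0 < d := by
    rcases (Metric.diam_nonneg (s := K)).lt_or_eq with h | h
    · exact h
    · exfalso
      have h1 := hd _ (hK.1.maps hp) _ hp
      rw [hddef, ← h] at h1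
      exact hno p (hKC hp) (sub_eq_zero.1 (norm_le_zero_iff.1 h1))
  have hdiam : ∀ s : ℝ, (∀ u ∈ K, ∀ v ∈ K, ‖u - v‖ ≤ s) → d ≤ s := by
    intro s h
    refine Metric.diam_le_of_forall_dist_le ?_ (fun u hu v hv => by
      rw [dist_eq_norm]; exact h u hu v hv)
    simpa using h p hp p hp
  obtain ⟨y, ξ, m, hy, hξK, hm, hafps, hblock, -⟩ := hK.exists_block_afps b hTK hCK hbdK
  -- the choice of the error `η`
  set gap : ℝ := k * d - cs * (((k : ℝ) - 1) * d + cs * d * (1 - δ)) with hgap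
  have hgappos : 0 < gap := by
    have : cs * (((k : ℝ) - 1) * d + cs * d * (1 - δ))
        = (cs * (((k : ℝ) - 1) + cs * (1 - δ))) * d := by ring
    rw [hgap, this, ← sub_mul]
    exact mul_pos (by linarith) hdpos
  set η : ℝ := gap / (2 * cs ^ 2 + 1) with hη
  have hηpos : 0 < η := by positivity
  have hηgap : 2 * cs ^ 2 * η < gap := by
    rw [hη, mul_div_assoc', div_lt_iff₀ (by positivity)]
    nlinarith [sq_nonneg cs]
  set β : ℝ := cs * d * (1 - δ) + 2 * cs * η with hβ
  have hβd : cs * (((k : ℝ) - 1) * d + β) / k < d := by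
    rw [div_lt_iff₀ hkpos, hβ]
    have : cs * (((k : ℝ) - 1) * d + (cs * d * (1 - δ) + 2 * cs * η))
        = cs * (((k : ℝ) - 1) * d + cs * d * (1 - δ)) + 2 * cs ^ 2 * η := by ring
    rw [this]
    rw [hgap] at hηgap
    linarith
  have hev : ∀ σ : Fin k → Bool, ∀ᶠ j in atTop,
      β < ‖(k : ℝ)⁻¹ • ∑ i, ξ (sel k σ i j) - y‖ := by
    intro σ
    by_contra hnot
    rw [not_eventually] at hnot
    have hfreq : ∃ᶠ j in atTop, ‖(k : ℝ)⁻¹ • ∑ i, ξ (sel k σ i j) - y‖ ≤ β :=
      hnot.mono (fun j h => not_lt.1 h)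
    have h1 := hK.average_large hs hcs hTK hCK hd hy hξK hm hafps hblock hk (sel k σ)
      (sel_tendsto hk σ) (sel_injective σ) hfreq
    have h2 := hdiam _ h1
    linarith
  have hev2 : ∀ᶠ j in atTop, ∀ σ : Fin k → Bool,
      β < ‖(k : ℝ)⁻¹ • ∑ i, ξ (sel k σ i j) - y‖ := eventually_all.2 hev
  have herr : ∀ᶠ n in atTop,
      ‖(ξ n - y) - PP b (Finset.Ico (m n) (m (n + 1))) (ξ n - y)‖ < η :=
    hblock.eventually (gt_mem_nhds hηpos)
  obtain ⟨N, hN⟩ := herr.exists_forall_of_atTop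
  obtain ⟨j, hj, hjN⟩ := (hev2.and (eventually_ge_atTop N)).exists
  -- notation
  let F : ℕ → Finset ℕ := fun n => Finset.Ico (m n) (m (n + 1))
  let z : ℕ → X := fun n => ξ n - y
  let e : ℕ → X := fun n => z n - PP b (F n) (z n)
  have he : ∀ σ : Fin k → Bool, ∀ i, ‖e (sel k σ i j)‖ < η := fun σ i =>
    hN _ (hjN.trans (sel_ge hk σ i j))
  -- apply the non-`ℓ₁ᵏ` hypothesis
  let x : Fin k → X := fun i =>
    d⁻¹ • (ξ (sel k (fun _ => false) i j) - ξ (sel k (fun _ => true) i j))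
  obtain ⟨ε, hε, hεnorm⟩ := hB x (fun i => by
      rw [norm_smul, norm_inv, Real.norm_of_nonneg hdpos.le, inv_mul_le_iff₀ hdpos, mul_one]
      exact hd _ (hξK _) _ (hξK _))
    (fun i => ⟨_, hKC (hξK _), _, hKC (hξK _), d⁻¹, rfl⟩)
  let σ : Fin k → Bool := fun i => decide (ε i = -1)
  let τ : Fin k → Bool := fun i => !σ i
  have hterm : ∀ i, ε i • (ξ (sel k (fun _ => false) i j) - ξ (sel k (fun _ => true) i j))
      = z (sel k σ i j) - z (sel k τ i j) := by
    intro i
    have hsel : ∀ (ρ : Fin k → Bool) (c : Bool), ρ i = c → sel k ρ i j = sel k (fun _ => c) i j := by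
      intro ρ c h
      simp [sel, h]
    rcases hε i with h | h
    · have h1 : σ i = false := by
        simp only [σ, h]
        norm_num
      have h2 : τ i = true := by simp [τ, h1]
      rw [h, one_smul, hsel σ false h1, hsel τ true h2]
      simp [z]
    · have h1 : σ i = true := by simp [σ, h]
      have h2 : τ i = false := by simp [τ, h1]
      rw [h, hsel σ true h1, hsel τ false h2]
      simp [z]
  have hsumnorm : ‖∑ i, (z (sel k σ i j) - z (sel k τ i j))‖ ≤ d * (k * (1 - δ)) := by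
    have h1 : ∑ i, (z (sel k σ i j) - z (sel k τ i j)) = d • ∑ i, ε i • x i := by
      rw [Finset.smul_sum]
      refine Finset.sum_congr rfl (fun i _ => ?_)
      rw [← hterm i]
      simp only [x]
      rw [smul_comm (ε i), smul_smul, mul_inv_cancel₀ hdpos.ne', one_smul]
    rw [h1, norm_smul, Real.norm_of_nonneg hdpos.le]
    gcongr
  let A : Finset ℕ := Finset.univ.biUnion (fun i => F (sel k σ i j))
  have hpos : ∀ i, PP b A (z (sel k σ i j))
      = z (sel k σ i j) - e (sel k σ i j) + PP b A (e (sel k σ i j)) := by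
    intro i
    have h1 : z (sel k σ i j) = PP b (F (sel k σ i j)) (z (sel k σ i j)) + e (sel k σ i j) := by
      simp [e]
    have h2 : F (sel k σ i j) ⊆ A := Finset.subset_biUnion_of_mem (fun i => F (sel k σ i j))
      (Finset.mem_univ i)
    conv_lhs => rw [h1]
    rw [map_add, PP_PP_of_subset b h2]
    simp [e]
  have hneg : ∀ i, PP b A (z (sel k τ i j)) = PP b A (e (sel k τ i j)) := by
    intro i
    have h1 : z (sel k τ i j) = PP b (F (sel k τ i j)) (z (sel k τ i j)) + e (sel k τ i j) := by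
      simp [e]
    have h2 : Disjoint A (F (sel k τ i j)) := by
      rw [Finset.disjoint_biUnion_left]
      intro i' _
      exact disjoint_Ico_of_ne hm (sel_ne_not σ i' i j)
    conv_lhs => rw [h1]
    rw [map_add, PP_PP_of_disjoint b h2, zero_add]
  have hident : ∑ i, z (sel k σ i j) = PP b A (∑ i, (z (sel k σ i j) - z (sel k τ i j)))
      + ∑ i, ((e (sel k σ i j) - PP b A (e (sel k σ i j))) + PP b A (e (sel k τ i j))) := by
    rw [map_sum, ← Finset.sum_add_distrib]
    refine Finset.sum_congr rfl (fun i _ => ?_)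
    rw [map_sub, hpos i, hneg i]
    abel
  have hbound : ‖∑ i, z (sel k σ i j)‖ ≤ k * β := by
    rw [hident]
    refine (norm_add_le _ _).trans ?_
    have h1 : ‖PP b A (∑ i, (z (sel k σ i j) - z (sel k τ i j)))‖ ≤ cs * (d * (k * (1 - δ))) :=
      (hs.norm_PP_le _ _).trans (by gcongr)
    have h2 : ‖∑ i, ((e (sel k σ i j) - PP b A (e (sel k σ i j))) + PP b A (e (sel k τ i j)))‖
        ≤ k * (cs * η + cs * η) := by
      refine (norm_sum_le _ _).trans ?_
      have : ∀ i ∈ (Finset.univ : Finset (Fin k)),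
          ‖(e (sel k σ i j) - PP b A (e (sel k σ i j))) + PP b A (e (sel k τ i j))‖
          ≤ cs * η + cs * η := by
        intro i _
        refine (norm_add_le _ _).trans (add_le_add ?_ ?_)
        · exact (hs.norm_sub_PP_le _ _).trans (by gcongr; exact (he σ i).le)
        · exact (hs.norm_PP_le _ _).trans (by gcongr; exact (he τ i).le)
      refine (Finset.sum_le_sum this).trans ?_
      rw [Finset.sum_const, Finset.card_univ, Fintype.card_fin, nsmul_eq_mul]
    rw [hβ]
    calc _ ≤ cs * (d * (k * (1 - δ))) + k * (cs * η + cs * η) := add_le_add h1 h2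
      _ = k * (cs * d * (1 - δ) + 2 * cs * η) := by ring
  have hfin : ‖(k : ℝ)⁻¹ • ∑ i, ξ (sel k σ i j) - y‖ ≤ β := by
    have h1 : (k : ℝ)⁻¹ • ∑ i, ξ (sel k σ i j) - y = (k : ℝ)⁻¹ • ∑ i, z (sel k σ i j) := by
      simp only [z, Finset.sum_sub_distrib, Finset.sum_const, Finset.card_univ, Fintype.card_fin,
        smul_sub]
      rw [← Nat.cast_smul_eq_nsmul ℝ, smul_smul, inv_mul_cancel₀ hkpos.ne', one_smul]
    rw [h1, norm_smul, norm_inv, Real.norm_of_nonneg hkpos.le, inv_mul_le_iff₀ hkpos]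
    exact hbound
  exact absurd (hj σ) (not_lt.2 hfin)

/-- Passing from maps of the ambient space to maps of the subtype. -/
lemma subtype_fixedPoint {C : Set X}
    (h : ∀ T : X → X, MapsTo T C C → NE T C → ∃ x ∈ C, T x = x) (T : C → C)
    (hT : ∀ a b : C, ‖(T a : X) - (T b : X)‖ ≤ ‖(a : X) - (b : X)‖) : ∃ x : C, T x = x := by
  classical
  let T' : X → X := fun x => if hx : x ∈ C then (T ⟨x, hx⟩ : X) else x
  have hT' : ∀ x (hx : x ∈ C), T' x = T ⟨x, hx⟩ := fun x hx => by simp [T', hx]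
  obtain ⟨x, hx, hfix⟩ := h T' (fun x hx => by rw [hT' x hx]; exact (T ⟨x, hx⟩).2)
    (fun a ha c hc => by rw [hT' a ha, hT' c hc]; exact hT ⟨a, ha⟩ ⟨c, hc⟩)
  exact ⟨⟨x, hx⟩, Subtype.ext (by rw [← hT' x hx]; exact hfix)⟩

/-- **Main theorem (space version).** -/
theorem hasFPP_of_supp (hrefl : IsReflexive X) {b : SchauderBasis ℝ X} {cs : ℝ}
    (hs : Supp b cs) (hcs : 0 ≤ cs) {k : ℕ} {δ : ℝ} (hk : 0 < k) (hB : UniformlyNonL1 X k δ)
    (hcond : cs * (((k : ℝ) - 1) + cs * (1 - δ)) < k) : HasFPP X := by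
  intro C hne hcl hbd hcv T hT
  refine subtype_fixedPoint (fun T' hmaps hNE => ?_) T hT
  exact exists_fixedPoint_of_supp hs hcs hk (fun x hx _ => hB x hx) hcond
    (cip_of_reflexive hrefl hbd) hne hcl hbd hcv hmaps hNE

end Vale.Agent.Lib.P079
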