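import Mathlib

/-!
# Definitions used in the statements on the fixed point property (problem P079)
-/

namespace Vale.Agent.Lib.P079

/-- A real normed space is reflexive if the canonical embedding into its bidual is onto. -/
def IsReflexive (X : Type*) [NormedAddCommGroup X] [NormedSpace ℝ X] : Prop :=
  Function.Surjective (NormedSpace.inclusionInDoubleDual ℝ X)

/-- The fixed point property: every nonexpansive self-map of a nonempty closed bounded convex
subset has a fixed point. -/
def HasFPP (X : Type*) [NormedAddCommGroup X] [NormedSpace ℝ X] : Prop :=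
  ∀ C : Set X, C.Nonempty → IsClosed C → Bornology.IsBounded C → Convex ℝ C →
    ∀ T : C → C, (∀ a b : C, ‖(T a : X) - (T b : X)‖ ≤ ‖(a : X) - (b : X)‖) →
      ∃ x : C, T x = x

/-- The Schauder basis `b` has suppression unconditional constant at most `cs`: deleting terms of
a finite linear combination of basis vectors increases the norm at most by the factor `cs`. -/
def Supp {X : Type*} [NormedAddCommGroup X] [NormedSpace ℝ X] (b : SchauderBasis ℝ X)
    (cs : ℝ) : Prop :=
  ∀ (c : ℕ → ℝ) (A B : Finset ℕ), A ⊆ B → ‖∑ n ∈ A, c n • b n‖ ≤ cs * ‖∑ n ∈ B, c n • b n‖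

/-- `X` is uniformly non-`ℓ₁ᵏ` with constant `δ`: any `k` vectors of the unit ball admit a choice
of signs for which the signed sum has norm at most `k (1 - δ)`. -/
def UniformlyNonL1 (X : Type*) [NormedAddCommGroup X] [NormedSpace ℝ X] (k : ℕ) (δ : ℝ) : Prop :=
  ∀ x : Fin k → X, (∀ i, ‖x i‖ ≤ 1) →
    ∃ ε : Fin k → ℝ, (∀ i, ε i = 1 ∨ ε i = -1) ∧ ‖∑ i, ε i • x i‖ ≤ k * (1 - δ)

/-- The Banach-Saks property: every bounded sequence has a subsequence whose Cesaro means
converge in norm. -/
def HasBanachSaks (X : Type*) [NormedAddCommGroup X] [NormedSpace ℝ X] : Prop :=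
  ∀ x : ℕ → X, Bornology.IsBounded (Set.range x) →
    ∃ φ : ℕ → ℕ, StrictMono φ ∧ ∃ L : X,
      Filter.Tendsto (fun N : ℕ => ((N : ℝ))⁻¹ • ∑ s ∈ Finset.range N, x (φ s)) Filter.atTop
        (nhds L)

/-- `X` has a weakly null sequence `(u n)` in its unit ball which generates a spreading model
isometric to `ℓ₁`: for every `k` and `ε > 0`, any `k` terms with distinct, sufficiently large
indices satisfy `‖∑ a i • u (n i)‖ ≥ (1 - ε) ∑ |a i|` for all scalars. -/
def HasWeaklyNullL1SpreadingModel (X : Type*) [NormedAddCommGroup X] [NormedSpace ℝ X] : Prop :=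
  ∃ u : ℕ → X, (∀ n, ‖u n‖ ≤ 1) ∧
    (∀ f : StrongDual ℝ X, Filter.Tendsto (fun n => f (u n)) Filter.atTop (nhds 0)) ∧
    ∀ k : ℕ, ∀ ε : ℝ, 0 < ε → ∃ N : ℕ, ∀ n : Fin k → ℕ, Function.Injective n →
      (∀ i, N ≤ n i) → ∀ a : Fin k → ℝ, (1 - ε) * ∑ i, |a i| ≤ ‖∑ i, a i • u (n i)‖

end Vale.Agent.Lib.P079
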