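import Vale.Agent.Lib.P079.Key
import Vale.Agent.Lib.P079.Defs

/-!
# Schauder bases with a suppression constant: projections and gliding humps
-/

namespace Vale.Agent.Lib.P079

open Set Filter Topology

variable {X : Type*} [NormedAddCommGroup X] [NormedSpace ℝ X]

/-- The basis projection onto a finite set of coordinates. -/
noncomputable abbrev PP (b : SchauderBasis ℝ X) (A : Finset ℕ) : X →L[ℝ] X :=
  GeneralSchauderBasis.proj b A

variable {b : SchauderBasis ℝ X} {cs : ℝ}

lemma tendsto_PP_range (b : SchauderBasis ℝ X) (x : X) :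
    Tendsto (fun n => PP b (Finset.range n) x) atTop (𝓝 x) :=
  SchauderBasis.tendsto_proj b x

lemma Supp.norm_PP_le (hs : Supp b cs) (A : Finset ℕ) (x : X) : ‖PP b A x‖ ≤ cs * ‖x‖ := by
  have h1 : Tendsto (fun n => cs * ‖PP b (Finset.range n) x‖) atTop (𝓝 (cs * ‖x‖)) :=
    ((tendsto_PP_range b x).norm).const_mul cs
  refine ge_of_tendsto h1 ?_
  obtain ⟨N, hN⟩ : ∃ N, A ⊆ Finset.range N := ⟨A.sup id + 1, fun i hi => by
    rw [Finset.mem_range]
    exact Nat.lt_succ_of_le (Finset.le_sup (f := id) hi)⟩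
  filter_upwards [eventually_ge_atTop N] with n hn
  have := hs (fun i => b.coord i x) A (Finset.range n)
    (hN.trans (Finset.range_subset_range.2 hn))
  simpa [PP, GeneralSchauderBasis.proj_apply] using this

lemma PP_sdiff (b : SchauderBasis ℝ X) {A B : Finset ℕ} (h : A ⊆ B) (x : X) :
    PP b (B \ A) x = PP b B x - PP b A x := by
  simp only [PP, GeneralSchauderBasis.proj_apply]
  rw [eq_sub_iff_add_eq, Finset.sum_sdiff h]

lemma Supp.norm_sub_PP_le (hs : Supp b cs) (A : Finset ℕ) (x : X) :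
    ‖x - PP b A x‖ ≤ cs * ‖x‖ := by
  have h1 : Tendsto (fun n => ‖PP b (Finset.range n) x - PP b A x‖) atTop
      (𝓝 ‖x - PP b A x‖) := ((tendsto_PP_range b x).sub_const _).norm
  refine le_of_tendsto h1 ?_
  obtain ⟨N, hN⟩ : ∃ N, A ⊆ Finset.range N := ⟨A.sup id + 1, fun i hi => by
    rw [Finset.mem_range]
    exact Nat.lt_succ_of_le (Finset.le_sup (f := id) hi)⟩
  filter_upwards [eventually_ge_atTop N] with n hn
  rw [← PP_sdiff b (hN.trans (Finset.range_subset_range.2 hn))]
  exact hs.norm_PP_le _ _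

lemma PP_Ico (b : SchauderBasis ℝ X) {m n : ℕ} (h : m ≤ n) (x : X) :
    PP b (Finset.Ico m n) x = PP b (Finset.range n) x - PP b (Finset.range m) x := by
  simp only [PP, GeneralSchauderBasis.proj_apply]
  exact Finset.sum_Ico_eq_sub _ h

lemma PP_biUnion (b : SchauderBasis ℝ X) {κ : Type*} (s : Finset κ) (F : κ → Finset ℕ)
    (hF : (s : Set κ).PairwiseDisjoint F) (x : X) :
    PP b (s.biUnion F) x = ∑ i ∈ s, PP b (F i) x := by
  simp only [PP, GeneralSchauderBasis.proj_apply]
  exact Finset.sum_biUnion hF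

lemma PP_PP (b : SchauderBasis ℝ X) (A B : Finset ℕ) (x : X) :
    PP b A (PP b B x) = PP b (A ∩ B) x := by
  have h := GeneralSchauderBasis.proj_comp b A B x
  have hinst : ∀ inst : DecidableEq ℕ,
      @Inter.inter (Finset ℕ) (@Finset.instInter ℕ inst) A B
        = @Inter.inter (Finset ℕ) (@Finset.instInter ℕ instDecidableEqNat) A B := by
    intro inst
    ext a
    simp only [Finset.mem_inter]
  rw [hinst] at h
  exact h

lemma PP_PP_of_disjoint (b : SchauderBasis ℝ X) {A B : Finset ℕ} (h : Disjoint A B) (x : X) :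
    PP b A (PP b B x) = 0 := by
  rw [PP_PP, Finset.disjoint_iff_inter_eq_empty.1 h]
  simp [PP]

lemma PP_PP_of_subset (b : SchauderBasis ℝ X) {A B : Finset ℕ} (h : B ⊆ A) (x : X) :
    PP b A (PP b B x) = PP b B x := by
  rw [PP_PP, Finset.inter_eq_right.2 h]

/-- Block projections along intervals running to infinity tend to zero pointwise. -/
lemma tendsto_PP_Ico (b : SchauderBasis ℝ X) {m : ℕ → ℕ} (hm : StrictMono m) (x : X) :
    Tendsto (fun j => PP b (Finset.Ico (m j) (m (j + 1))) x) atTop (𝓝 0) := by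
  have h1 : Tendsto (fun j => PP b (Finset.range (m (j + 1))) x) atTop (𝓝 x) :=
    (tendsto_PP_range b x).comp (hm.tendsto_atTop.comp (tendsto_add_atTop_nat 1))
  have h2 : Tendsto (fun j => PP b (Finset.range (m j)) x) atTop (𝓝 x) :=
    (tendsto_PP_range b x).comp hm.tendsto_atTop
  have h3 := h1.sub h2
  rw [sub_self] at h3
  refine h3.congr (fun j => ?_)
  rw [PP_Ico b (hm.monotone (Nat.le_succ j))]

/-- A coordinatewise null sequence is killed by every finite coordinate projection. -/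
lemma tendsto_PP_of_coord (b : SchauderBasis ℝ X) {z : ℕ → X}
    (hz : ∀ i, Tendsto (fun n => b.coord i (z n)) atTop (𝓝 0)) (A : Finset ℕ) :
    Tendsto (fun n => PP b A (z n)) atTop (𝓝 0) := by
  simp only [PP, GeneralSchauderBasis.proj_apply]
  have : Tendsto (fun n => ∑ i ∈ A, b.coord i (z n) • b i) atTop (𝓝 (∑ i ∈ A, (0 : ℝ) • b i)) :=
    tendsto_finsetSum _ (fun i _ => (hz i).smul_const _)
  simpa using this

/-- Gliding hump: a coordinatewise null sequence has a subsequence which is, up to a null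
perturbation, a block sequence. -/
lemma exists_blocks (b : SchauderBasis ℝ X) {z : ℕ → X}
    (hz : ∀ i, Tendsto (fun n => b.coord i (z n)) atTop (𝓝 0)) :
    ∃ (ν m : ℕ → ℕ), StrictMono ν ∧ StrictMono m ∧
      ∀ j, ‖z (ν j) - PP b (Finset.Ico (m j) (m (j + 1))) (z (ν j))‖ ≤ 1 / ((j : ℝ) + 1) := by
  have step : ∀ (j n m : ℕ), ∃ n' m', n < n' ∧ m < m' ∧
      ‖z n' - PP b (Finset.Ico m m') (z n')‖ ≤ 1 / ((j : ℝ) + 1) := by
    intro j n m
    have hpos : (0 : ℝ) < 1 / ((j : ℝ) + 1) / 2 := by positivity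
    have h1 : ∀ᶠ n' in atTop, ‖PP b (Finset.range m) (z n')‖ < 1 / ((j : ℝ) + 1) / 2 := by
      have := (tendsto_PP_of_coord b hz (Finset.range m)).norm
      rw [norm_zero] at this
      exact this.eventually (gt_mem_nhds hpos)
    obtain ⟨n', hn', hn'2⟩ := (h1.and (eventually_gt_atTop n)).exists
    have h2 : ∀ᶠ m' in atTop, ‖z n' - PP b (Finset.range m') (z n')‖ < 1 / ((j : ℝ) + 1) / 2 := by
      have := ((tendsto_PP_range b (z n')).const_sub (z n')).norm
      rw [sub_self, norm_zero] at this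
      exact this.eventually (gt_mem_nhds hpos)
    obtain ⟨m', hm', hm'2⟩ := (h2.and (eventually_gt_atTop m)).exists
    refine ⟨n', m', hn'2, hm'2, ?_⟩
    rw [PP_Ico b hm'2.le]
    have : z n' - (PP b (Finset.range m') (z n') - PP b (Finset.range m) (z n'))
        = (z n' - PP b (Finset.range m') (z n')) + PP b (Finset.range m) (z n') := by abel
    rw [this]
    refine (norm_add_le _ _).trans ?_
    linarith
  choose f g hf hg hfg using step
  let s : ℕ → ℕ × ℕ := fun j => Nat.rec (0, 0) (fun j p => (f j p.1 p.2, g j p.1 p.2)) j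
  have hs : ∀ j, s (j + 1) = (f j (s j).1 (s j).2, g j (s j).1 (s j).2) := fun j => rfl
  refine ⟨fun j => (s (j + 1)).1, fun j => (s j).2, ?_, ?_, ?_⟩
  · refine strictMono_nat_of_lt_succ (fun j => ?_)
    show (s (j + 1)).1 < (s (j + 1 + 1)).1
    rw [hs (j + 1)]
    exact hf _ _ _
  · refine strictMono_nat_of_lt_succ (fun j => ?_)
    show (s j).2 < (s (j + 1)).2
    rw [hs j]
    exact hg _ _ _
  · intro j
    show ‖z (s (j + 1)).1 - PP b (Finset.Ico (s j).2 (s (j + 1)).2) (z (s (j + 1)).1)‖ ≤ _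
    rw [hs j]
    exact hfg _ _ _

end Vale.Agent.Lib.P079
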