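import Vale.Agent.Lib.P079.Basis

/-!
# Block approximate fixed point sequences in minimal invariant sets
-/

namespace Vale.Agent.Lib.P079

open Set Filter Topology

variable {X : Type*} [NormedAddCommGroup X] [NormedSpace ℝ X]
variable {T : X → X} {K : Set X}

lemma MinInv.exists_afps (hK : MinInv T K) (hT : NE T K) {M : ℝ}
    (hM : ∀ u ∈ K, ∀ v ∈ K, ‖u - v‖ ≤ M) :
    ∃ x : ℕ → X, (∀ n, x n ∈ K) ∧ Tendsto (fun n => ‖x n - T (x n)‖) atTop (𝓝 0) := by
  have h : ∀ n : ℕ, ∃ x ∈ K, ‖x - T x‖ ≤ 1 / ((n : ℝ) + 1) := by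
    intro n
    obtain ⟨x0, hx0⟩ := hK.1.nonempty
    obtain ⟨w, hw, hw2⟩ := exists_almost_fixed (ι := Unit) hT hM
      (W := {w | ∀ j, w j ∈ K}) ⟨fun _ => x0, fun _ => hx0⟩ (fun w hw => hw)
      (fun w hw w' hw' t ht0 ht1 j => hK.1.convex (hw j) (hw' j) (by linarith) ht0 (by ring))
      (fun w hw j => hK.1.maps (hw j)) (ε := 1 / ((n : ℝ) + 1)) (by positivity)
    exact ⟨w (), hw (), hw2 ()⟩
  choose x hxK hx using h
  exact ⟨x, hxK, squeeze_zero (fun _ => norm_nonneg _) hx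
    tendsto_one_div_add_atTop_nhds_zero_nat⟩

/-- A bounded sequence in a set with the intersection property has a subsequence converging
coordinatewise to a point of the set. -/
lemma exists_coord_limit (b : SchauderBasis ℝ X) (hKc : IsClosed K) (hKv : Convex ℝ K)
    (hC : CIP K) (hbd : Bornology.IsBounded K) {x : ℕ → X} (hx : ∀ n, x n ∈ K) :
    ∃ (y : X) (φ : ℕ → ℕ), y ∈ K ∧ StrictMono φ ∧
      ∀ i, Tendsto (fun n => b.coord i (x (φ n) - y)) atTop (𝓝 0) := by
  obtain ⟨R, hR⟩ := hbd.exists_norm_le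
  have hcpt : IsCompact (univ.pi (fun i : ℕ => Icc (-(‖b.coord i‖ * R)) (‖b.coord i‖ * R))) :=
    isCompact_univ_pi (fun i => isCompact_Icc)
  have hmem : ∀ n, (fun i => b.coord i (x n)) ∈
      univ.pi (fun i : ℕ => Icc (-(‖b.coord i‖ * R)) (‖b.coord i‖ * R)) := by
    intro n i _
    have h1 : ‖b.coord i (x n)‖ ≤ ‖b.coord i‖ * R :=
      ((b.coord i).le_opNorm _).trans (by gcongr; exact hR _ (hx n))
    rw [Real.norm_eq_abs] at h1
    exact abs_le.1 h1
  obtain ⟨a, -, φ, hφ, ha⟩ := hcpt.tendsto_subseq hmem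
  rw [tendsto_pi_nhds] at ha
  have hanti : Antitone (fun m => closedConvexHull ℝ ((x ∘ φ) '' Ici m)) := by
    intro p q hpq
    exact closedConvexHull_min ((image_mono (Ici_subset_Ici.2 hpq)).trans
      subset_closedConvexHull) convex_closedConvexHull isClosed_closedConvexHull
  have hsubK : ∀ m, closedConvexHull ℝ ((x ∘ φ) '' Ici m) ⊆ K := by
    intro m
    exact closedConvexHull_min (by rintro _ ⟨j, _, rfl⟩; exact hx _) hKv hKc
  obtain ⟨y, hy⟩ := hC.seq (fun m => closedConvexHull ℝ ((x ∘ φ) '' Ici m)) hanti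
    (fun m => ⟨(x ∘ φ) m, subset_closedConvexHull ⟨m, self_mem_Ici, rfl⟩⟩)
    (fun m => isClosed_closedConvexHull) (fun m => convex_closedConvexHull) hsubK
  rw [mem_iInter] at hy
  have hya : ∀ i, b.coord i y = a i := by
    intro i
    refine eq_of_forall_dist_le (fun ε hε => ?_)
    have h1 : ∀ᶠ n in atTop, dist (b.coord i (x (φ n))) (a i) ≤ ε := by
      have := (ha i).eventually (Metric.closedBall_mem_nhds (a i) hε)
      simpa using this
    obtain ⟨m, hm⟩ := h1.exists_forall_of_atTop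
    have h2 : closedConvexHull ℝ ((x ∘ φ) '' Ici m) ⊆ (b.coord i) ⁻¹' Metric.closedBall (a i) ε := by
      refine closedConvexHull_min ?_ ?_ ?_
      · rintro _ ⟨j, hj, rfl⟩
        exact hm j hj
      · exact (convex_closedBall (a i) ε).linear_preimage (b.coord i).toLinearMap
      · exact Metric.isClosed_closedBall.preimage (b.coord i).continuous
    exact h2 (hy m)
  refine ⟨y, φ, hsubK 0 (hy 0), hφ, fun i => ?_⟩
  have := (ha i).sub_const (a i)
  rw [sub_self] at this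
  refine this.congr (fun n => ?_)
  rw [map_sub, hya i]
  rfl

/-- In a minimal invariant set of a space with a Schauder basis there is an approximate fixed
point sequence which, after subtracting a point `y` of the set, is essentially a block sequence. -/
lemma MinInv.exists_block_afps (b : SchauderBasis ℝ X) (hK : MinInv T K) (hT : NE T K)
    (hC : CIP K) (hbd : Bornology.IsBounded K) :
    ∃ (y : X) (ξ : ℕ → X) (m : ℕ → ℕ), y ∈ K ∧ (∀ j, ξ j ∈ K) ∧ StrictMono m ∧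
      Tendsto (fun j => ‖ξ j - T (ξ j)‖) atTop (𝓝 0) ∧
      Tendsto (fun j => ‖(ξ j - y) - PP b (Finset.Ico (m j) (m (j + 1))) (ξ j - y)‖)
        atTop (𝓝 0) ∧
      ∀ i, Tendsto (fun j => b.coord i (ξ j - y)) atTop (𝓝 0) := by
  obtain ⟨R, hR⟩ := hbd.exists_norm_le
  have hM : ∀ u ∈ K, ∀ v ∈ K, ‖u - v‖ ≤ R + R := fun u hu v hv =>
    (norm_sub_le _ _).trans (add_le_add (hR u hu) (hR v hv))
  obtain ⟨x, hxK, hx⟩ := hK.exists_afps hT hM
  obtain ⟨y, φ, hy, hφ, hcoord⟩ := exists_coord_limit b hK.1.closed hK.1.convex hC hbd hxK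
  obtain ⟨ν, m, hν, hm, hblock⟩ := exists_blocks b (z := fun n => x (φ n) - y) hcoord
  refine ⟨y, fun j => x (φ (ν j)), m, hy, fun j => hxK _, hm, ?_, ?_, ?_⟩
  · exact hx.comp (hφ.tendsto_atTop.comp hν.tendsto_atTop)
  · exact squeeze_zero (fun _ => norm_nonneg _) hblock tendsto_one_div_add_atTop_nhds_zero_nat
  · exact fun i => (hcoord i).comp hν.tendsto_atTop

lemma disjoint_Ico_of_ne {m : ℕ → ℕ} (hm : StrictMono m) {j j' : ℕ} (h : j ≠ j') :
    Disjoint (Finset.Ico (m j) (m (j + 1))) (Finset.Ico (m j') (m (j' + 1))) := by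
  rw [Finset.disjoint_left]
  intro a ha ha'
  rw [Finset.mem_Ico] at ha ha'
  rcases lt_or_gt_of_ne h with h1 | h1
  · have := hm.monotone (Nat.succ_le_of_lt h1)
    simp only [Nat.succ_eq_add_one] at this
    omega
  · have := hm.monotone (Nat.succ_le_of_lt h1)
    simp only [Nat.succ_eq_add_one] at this
    omega

/-- **Averages of far-out terms of a block approximate fixed point sequence are large.** -/
lemma MinInv.average_large {b : SchauderBasis ℝ X} {cs : ℝ} (hs : Supp b cs) (hcs : 0 ≤ cs)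
    (hK : MinInv T K) (hT : NE T K) (hC : CIP K) {d : ℝ} (hd : ∀ u ∈ K, ∀ v ∈ K, ‖u - v‖ ≤ d)
    {y : X} {ξ : ℕ → X} {m : ℕ → ℕ} (hy : y ∈ K) (hξK : ∀ j, ξ j ∈ K) (hm : StrictMono m)
    (hafps : Tendsto (fun j => ‖ξ j - T (ξ j)‖) atTop (𝓝 0))
    (hblock : Tendsto (fun j => ‖(ξ j - y) - PP b (Finset.Ico (m j) (m (j + 1))) (ξ j - y)‖)
      atTop (𝓝 0))
    {k : ℕ} (hk : 0 < k) (ψ : Fin k → ℕ → ℕ) (hψ : ∀ i, Tendsto (ψ i) atTop atTop)
    (hinj : ∀ j, Function.Injective (fun i => ψ i j))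
    {β : ℝ} (hfreq : ∃ᶠ j in atTop, ‖(k : ℝ)⁻¹ • ∑ i, ξ (ψ i j) - y‖ ≤ β) :
    ∀ u ∈ K, ∀ v ∈ K, ‖u - v‖ ≤ cs * (((k : ℝ) - 1) * d + β) / k := by
  have : NeBot (atTop ⊓ 𝓟 {j | ‖(k : ℝ)⁻¹ • ∑ i, ξ (ψ i j) - y‖ ≤ β}) :=
    frequently_iff_neBot.1 hfreq
  let F : ℕ → Finset ℕ := fun j => Finset.Ico (m j) (m (j + 1))
  refine hK.key (l := atTop ⊓ 𝓟 {j | ‖(k : ℝ)⁻¹ • ∑ i, ξ (ψ i j) - y‖ ≤ β}) hT hC hd hk
    (fun i j => ξ (ψ i j)) (fun i j => hξK _) (fun i => ?_)
    (fun i j => ContinuousLinearMap.id ℝ X - PP b (F (ψ i j)))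
    (fun j => ∑ i, PP b (F (ψ i j))) hcs (fun i j v => ?_) (fun j v => ?_) (fun j v => ?_)
    hy (fun i => ?_) (fun z _ => ?_) ?_
  · exact (hafps.comp (hψ i)).mono_left inf_le_left
  · simpa using hs.norm_sub_PP_le (F (ψ i j)) v
  · have hdisj : ((Finset.univ : Finset (Fin k)) : Set (Fin k)).PairwiseDisjoint
        (fun i => F (ψ i j)) := by
      intro i _ i' _ hii'
      exact disjoint_Ico_of_ne hm (fun h => hii' (hinj j h))
    have := PP_biUnion b Finset.univ (fun i => F (ψ i j)) hdisj v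
    rw [_root_.sum_apply, ← this]
    exact hs.norm_PP_le _ _
  · rw [_root_.sum_apply]
    simp only [_root_.sub_apply, ContinuousLinearMap.id_apply,
      Finset.sum_sub_distrib, Finset.sum_const, Finset.card_univ, Fintype.card_fin]
    rw [sub_add_cancel, Nat.cast_smul_eq_nsmul]
  · have := (hblock.comp (hψ i)).mono_left
      (inf_le_left : atTop ⊓ 𝓟 {j | ‖(k : ℝ)⁻¹ • ∑ i, ξ (ψ i j) - y‖ ≤ β} ≤ atTop)
    simpa [F, Function.comp_def] using this
  · have h1 : ∀ i : Fin k, Tendsto (fun j => PP b (F (ψ i j)) (z - y)) atTop (𝓝 0) :=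
      fun i => (tendsto_PP_Ico b hm (z - y)).comp (hψ i)
    have h2 : Tendsto (fun j => ∑ i, PP b (F (ψ i j)) (z - y)) atTop (𝓝 (∑ _i : Fin k, (0 : X))) :=
      tendsto_finsetSum _ (fun i _ => h1 i)
    have h3 := h2.norm
    simp only [Finset.sum_const_zero, norm_zero] at h3
    refine (h3.mono_left inf_le_left).congr (fun j => ?_)
    rw [_root_.sum_apply]
  · exact mem_inf_of_right (mem_principal_self _)

end Vale.Agent.Lib.P079
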