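import Vale.Agent.Lib.P079.Minimal

/-!
# The key lemma: `k` approximate fixed point sequences and a resolution of `k • id`
-/

namespace Vale.Agent.Lib.P079

open Set Filter Topology

variable {X : Type*} [NormedAddCommGroup X] [NormedSpace ℝ X]
variable {T : X → X} {K : Set X}

lemma average_mem {k : ℕ} (hk : 0 < k) (hKc : Convex ℝ K) (x : Fin k → X) (hx : ∀ i, x i ∈ K) :
    (k : ℝ)⁻¹ • ∑ i, x i ∈ K := by
  have hk' : (k : ℝ) ≠ 0 := by positivity
  have := hKc.sum_mem (t := Finset.univ) (w := fun _ : Fin k => (k : ℝ)⁻¹) (z := x)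
    (fun i _ => by positivity) (by simp [hk']) (fun i _ => hx i)
  rwa [← Finset.smul_sum] at this

lemma average_sub_le {k : ℕ} (hk : 0 < k) {d : ℝ} (x : Fin k → X)
    (hd : ∀ i l, ‖x l - x i‖ ≤ d) (i : Fin k) :
    ‖(k : ℝ)⁻¹ • ∑ l, x l - x i‖ ≤ ((k : ℝ) - 1) / k * d := by
  have hk' : (k : ℝ) ≠ 0 := by positivity
  have h1 : (k : ℝ)⁻¹ • ∑ l, x l - x i = (k : ℝ)⁻¹ • ∑ l, (x l - x i) := by
    rw [Finset.sum_sub_distrib, smul_sub]
    simp [← Nat.cast_smul_eq_nsmul ℝ, smul_smul, hk']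
  have h2 : ∑ l, (x l - x i) = ∑ l ∈ Finset.univ.erase i, (x l - x i) := by
    rw [← Finset.add_sum_erase _ _ (Finset.mem_univ i)]
    simp
  have h3 : ‖∑ l ∈ Finset.univ.erase i, (x l - x i)‖ ≤ ((k : ℝ) - 1) * d := by
    calc ‖∑ l ∈ Finset.univ.erase i, (x l - x i)‖
        ≤ ∑ l ∈ Finset.univ.erase i, ‖x l - x i‖ := norm_sum_le _ _
      _ ≤ ∑ l ∈ Finset.univ.erase i, d := Finset.sum_le_sum (fun l _ => hd i l)
      _ = ((k : ℝ) - 1) * d := by
          rw [Finset.sum_const, Finset.card_erase_of_mem (Finset.mem_univ i), Finset.card_univ,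
            Fintype.card_fin, nsmul_eq_mul, Nat.cast_sub hk]
          simp
  rw [h1, h2, norm_smul, norm_inv, Real.norm_of_nonneg (by positivity : (0 : ℝ) ≤ k)]
  calc (k : ℝ)⁻¹ * ‖∑ l ∈ Finset.univ.erase i, (x l - x i)‖ ≤ (k : ℝ)⁻¹ * (((k : ℝ) - 1) * d) := by
        gcongr
    _ = ((k : ℝ) - 1) / k * d := by field_simp

/-- **Key lemma.** Let `K` be a minimal invariant set all of whose distances are `≤ d`.  Suppose
that `x 0, …, x (k-1)` are approximate fixed point families in `K` (along a filter `l`), and that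
`k • id = ∑ A i + B` with operators of norm `≤ c` such that `A i` asymptotically kills `x i - y`
and `B` asymptotically kills `z - y` for every `z ∈ K`.  If the averages of the `x i` are
eventually within `b` of `y`, then all distances in `K` are `≤ c ((k-1) d + b) / k`. -/
lemma MinInv.key {ι : Type*} {l : Filter ι} [l.NeBot] (hK : MinInv T K) (hT : NE T K)
    (hC : CIP K) {d : ℝ} (hd : ∀ u ∈ K, ∀ v ∈ K, ‖u - v‖ ≤ d)
    {k : ℕ} (hk : 0 < k) (x : Fin k → ι → X) (hxK : ∀ i j, x i j ∈ K)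
    (hx : ∀ i, Tendsto (fun j => ‖x i j - T (x i j)‖) l (𝓝 0))
    (A : Fin k → ι → X →L[ℝ] X) (B : ι → X →L[ℝ] X) {c : ℝ} (hc : 0 ≤ c)
    (hA : ∀ i j v, ‖A i j v‖ ≤ c * ‖v‖) (hB : ∀ j v, ‖B j v‖ ≤ c * ‖v‖)
    (hsum : ∀ j v, ∑ i, A i j v + B j v = (k : ℝ) • v)
    {y : X} (hy : y ∈ K)
    (hAx : ∀ i, Tendsto (fun j => ‖A i j (x i j - y)‖) l (𝓝 0))
    (hBK : ∀ z ∈ K, Tendsto (fun j => ‖B j (z - y)‖) l (𝓝 0))
    {b : ℝ} (hb : ∀ᶠ j in l, ‖(k : ℝ)⁻¹ • ∑ i, x i j - y‖ ≤ b) :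
    ∀ u ∈ K, ∀ v ∈ K, ‖u - v‖ ≤ c * (((k : ℝ) - 1) * d + b) / k := by
  have hkpos : (0 : ℝ) < k := by positivity
  set a : ℝ := ((k : ℝ) - 1) / k * d with ha
  let W : Set (ι → X) := {w | (∀ j, w j ∈ K) ∧
    (∀ i, ∀ ε > 0, ∀ᶠ j in l, ‖w j - x i j‖ ≤ a + ε) ∧
    (∃ z ∈ K, ∀ ε > 0, ∀ᶠ j in l, ‖w j - z‖ ≤ b + ε)}
  have hWne : W.Nonempty := by
    refine ⟨fun j => (k : ℝ)⁻¹ • ∑ i, x i j, fun j => ?_, fun i ε hε => ?_, y, hy, fun ε hε => ?_⟩
    · exact average_mem hk hK.1.convex _ (fun i => hxK i j)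
    · refine Eventually.of_forall fun j => ?_
      have := average_sub_le hk (d := d) (fun i => x i j)
        (fun i l => hd _ (hxK l j) _ (hxK i j)) i
      linarith
    · filter_upwards [hb] with j hj
      linarith
  have hWK : ∀ w ∈ W, ∀ j, w j ∈ K := fun w hw => hw.1
  have hWconv : ∀ w ∈ W, ∀ w' ∈ W, ∀ t : ℝ, 0 ≤ t → t ≤ 1 →
      (fun j => (1 - t) • w j + t • w' j) ∈ W := by
    intro w hw w' hw' t ht0 ht1
    obtain ⟨z, hz, hwz⟩ := hw.2.2
    obtain ⟨z', hz', hwz'⟩ := hw'.2.2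
    have h1t : 0 ≤ 1 - t := by linarith
    refine ⟨fun j => hK.1.convex (hw.1 j) (hw'.1 j) h1t ht0 (by ring), fun i ε hε => ?_,
      (1 - t) • z + t • z', hK.1.convex hz hz' h1t ht0 (by ring), fun ε hε => ?_⟩
    · filter_upwards [hw.2.1 i ε hε, hw'.2.1 i ε hε] with j h1 h2
      exact norm_sub_convex_le h1t ht0 (by ring) h1 h2
    · filter_upwards [hwz ε hε, hwz' ε hε] with j h1 h2
      have : (1 - t) • w j + t • w' j - ((1 - t) • z + t • z')
          = (1 - t) • (w j - z) + t • (w' j - z') := by module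
      rw [this]
      calc ‖(1 - t) • (w j - z) + t • (w' j - z')‖
          ≤ ‖(1 - t) • (w j - z)‖ + ‖t • (w' j - z')‖ := norm_add_le _ _
        _ = (1 - t) * ‖w j - z‖ + t * ‖w' j - z'‖ := by
            rw [norm_smul, norm_smul, Real.norm_of_nonneg h1t, Real.norm_of_nonneg ht0]
        _ ≤ (1 - t) * (b + ε) + t * (b + ε) := by gcongr
        _ = b + ε := by ring
  have hWT : ∀ w ∈ W, (fun j => T (w j)) ∈ W := by
    intro w hw
    obtain ⟨z, hz, hwz⟩ := hw.2.2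
    refine ⟨fun j => hK.1.maps (hw.1 j), fun i ε hε => ?_, T z, hK.1.maps hz, fun ε hε => ?_⟩
    · have h0 : ∀ᶠ j in l, ‖x i j - T (x i j)‖ < ε / 2 :=
        (hx i).eventually (gt_mem_nhds (by positivity))
      filter_upwards [hw.2.1 i (ε / 2) (by positivity), h0] with j h1 h2
      have h3 : ‖T (w j) - x i j‖ ≤ ‖T (w j) - T (x i j)‖ + ‖T (x i j) - x i j‖ := by
        have : T (w j) - x i j = (T (w j) - T (x i j)) + (T (x i j) - x i j) := by abel
        rw [this]; exact norm_add_le _ _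
      have h4 := hT _ (hw.1 j) _ (hxK i j)
      rw [norm_sub_rev] at h2
      linarith
    · filter_upwards [hwz ε hε] with j h1
      exact (hT _ (hw.1 j) _ hz).trans h1
  intro u hu v hv
  refine le_of_forall_pos_le_add (fun η hη => ?_)
  refine hK.lin hT hC hd hWne hWK hWconv hWT hy (s := c * (((k : ℝ) - 1) * d + b) / k + η)
    (fun w hw => ?_) u hu v hv
  obtain ⟨z, hz, hwz⟩ := hw.2.2
  set E : ℝ := k * c + k + c + 1 with hE
  have hEpos : 0 < E := by positivity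
  set ε : ℝ := k * η / E with hε
  have hεpos : 0 < ε := by positivity
  have hEε : E * ε = k * η := by rw [hε]; field_simp
  have e1 : ∀ᶠ j in l, ∀ i, ‖w j - x i j‖ ≤ a + ε :=
    eventually_all.2 (fun i => hw.2.1 i ε hεpos)
  have e2 : ∀ᶠ j in l, ∀ i, ‖A i j (x i j - y)‖ < ε :=
    eventually_all.2 (fun i => (hAx i).eventually (gt_mem_nhds hεpos))
  have e3 : ∀ᶠ j in l, ‖B j (z - y)‖ < ε := (hBK z hz).eventually (gt_mem_nhds hεpos)
  obtain ⟨j, h1, h2, h3, h4⟩ := (e1.and (e2.and (e3.and (hwz ε hεpos)))).exists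
  refine ⟨j, ?_⟩
  have hdecomp : (k : ℝ) • (w j - y) = ∑ i, (A i j (w j - x i j) + A i j (x i j - y))
      + (B j (w j - z) + B j (z - y)) := by
    rw [← hsum j (w j - y)]
    congr 1
    · refine Finset.sum_congr rfl (fun i _ => ?_)
      rw [← map_add]; congr 1; abel
    · rw [← map_add]; congr 1; abel
  have hnorm : (k : ℝ) * ‖w j - y‖ ≤ k * (c * (a + ε) + ε) + (c * (b + ε) + ε) := by
    calc (k : ℝ) * ‖w j - y‖ = ‖(k : ℝ) • (w j - y)‖ := by
          rw [norm_smul, Real.norm_of_nonneg hkpos.le]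
      _ ≤ ‖∑ i, (A i j (w j - x i j) + A i j (x i j - y))‖
          + ‖B j (w j - z) + B j (z - y)‖ := by rw [hdecomp]; exact norm_add_le _ _
      _ ≤ ∑ i : Fin k, (c * (a + ε) + ε) + (c * (b + ε) + ε) := by
          gcongr
          · refine (norm_sum_le _ _).trans (Finset.sum_le_sum fun i _ => ?_)
            refine (norm_add_le _ _).trans (add_le_add ?_ (h2 i).le)
            exact (hA i j _).trans (by gcongr; exact h1 i)
          · refine (norm_add_le _ _).trans (add_le_add ?_ h3.le)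
            exact (hB j _).trans (by gcongr)
      _ = k * (c * (a + ε) + ε) + (c * (b + ε) + ε) := by
          rw [Finset.sum_const, Finset.card_univ, Fintype.card_fin, nsmul_eq_mul]
  have hka : (k : ℝ) * a = ((k : ℝ) - 1) * d := by rw [ha]; field_simp
  have hfinal : (k : ℝ) * ‖w j - y‖ ≤ c * (((k : ℝ) - 1) * d + b) + k * η := by
    have : k * (c * (a + ε) + ε) + (c * (b + ε) + ε) = c * (k * a + b) + E * ε := by
      rw [hE]; ring
    rw [this, hka, hEε] at hnorm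
    exact hnorm
  have : c * (((k : ℝ) - 1) * d + b) / k + η = (c * (((k : ℝ) - 1) * d + b) + k * η) / k := by
    field_simp
  rw [this, le_div_iff₀ hkpos, mul_comm]
  exact hfinal

end Vale.Agent.Lib.P079
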