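import Vale.Agent.Lib.P079.Spreading

/-!
# Failure of the FPP in a reflexive space with a suppression 1-unconditional basis produces a
weakly null sequence generating an isometric `ℓ₁` spreading model
-/

namespace Vale.Agent.Lib.P079

open Set Filter Topology

variable {X : Type*} [NormedAddCommGroup X] [NormedSpace ℝ X]

/-- Suppressing the blocks with a minus sign. -/
lemma norm_sum_pos_le {b : SchauderBasis ℝ X} (hs : Supp b 1) {m : ℕ → ℕ} (hm : StrictMono m)
    (z : ℕ → X) {η : ℝ} {k : ℕ} (p q : Fin k → ℕ) (hpq : ∀ i i', p i ≠ q i')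
    (hp : ∀ i, ‖z (p i) - PP b (Finset.Ico (m (p i)) (m (p i + 1))) (z (p i))‖ ≤ η)
    (hq : ∀ i, ‖z (q i) - PP b (Finset.Ico (m (q i)) (m (q i + 1))) (z (q i))‖ ≤ η) :
    ‖∑ i, z (p i)‖ ≤ ‖∑ i, (z (p i) - z (q i))‖ + k * (2 * η) := by
  let F : ℕ → Finset ℕ := fun n => Finset.Ico (m n) (m (n + 1))
  let e : ℕ → X := fun n => z n - PP b (F n) (z n)
  let A : Finset ℕ := Finset.univ.biUnion (fun i => F (p i))
  have hpos : ∀ i, PP b A (z (p i)) = z (p i) - e (p i) + PP b A (e (p i)) := by
    intro i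
    have h1 : z (p i) = PP b (F (p i)) (z (p i)) + e (p i) := by simp [e]
    have h2 : F (p i) ⊆ A := Finset.subset_biUnion_of_mem (fun i => F (p i)) (Finset.mem_univ i)
    conv_lhs => rw [h1]
    rw [map_add, PP_PP_of_subset b h2]
    simp [e]
  have hneg : ∀ i, PP b A (z (q i)) = PP b A (e (q i)) := by
    intro i
    have h1 : z (q i) = PP b (F (q i)) (z (q i)) + e (q i) := by simp [e]
    have h2 : Disjoint A (F (q i)) := by
      rw [Finset.disjoint_biUnion_left]
      intro i' _
      exact disjoint_Ico_of_ne hm (hpq i' i)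
    conv_lhs => rw [h1]
    rw [map_add, PP_PP_of_disjoint b h2, zero_add]
  have hident : ∑ i, z (p i) = PP b A (∑ i, (z (p i) - z (q i)))
      + ∑ i, ((e (p i) - PP b A (e (p i))) + PP b A (e (q i))) := by
    rw [map_sum, ← Finset.sum_add_distrib]
    refine Finset.sum_congr rfl (fun i _ => ?_)
    rw [map_sub, hpos i, hneg i]
    abel
  rw [hident]
  refine (norm_add_le _ _).trans (add_le_add ?_ ?_)
  · simpa using hs.norm_PP_le A (∑ i, (z (p i) - z (q i)))
  · refine (norm_sum_le _ _).trans ?_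
    have : ∀ i ∈ (Finset.univ : Finset (Fin k)),
        ‖(e (p i) - PP b A (e (p i))) + PP b A (e (q i))‖ ≤ 2 * η := by
      intro i _
      refine (norm_add_le _ _).trans ?_
      have h1 : ‖e (p i) - PP b A (e (p i))‖ ≤ η :=
        (hs.norm_sub_PP_le _ _).trans (by rw [one_mul]; exact hp i)
      have h2 : ‖PP b A (e (q i))‖ ≤ η :=
        (hs.norm_PP_le _ _).trans (by rw [one_mul]; exact hq i)
      linarith
    refine (Finset.sum_le_sum this).trans ?_
    rw [Finset.sum_const, Finset.card_univ, Fintype.card_fin, nsmul_eq_mul]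

/-- From all choices of signs to all scalars. -/
lemma l1_lower_of_signs {k : ℕ} (u : Fin k → X) (hu : ∀ i, ‖u i‖ ≤ 1) {θ : ℝ}
    (h : ∀ ε : Fin k → ℝ, (∀ i, ε i = 1 ∨ ε i = -1) → (k : ℝ) - θ ≤ ‖∑ i, ε i • u i‖)
    (a : Fin k → ℝ) : (1 - θ) * ∑ i, |a i| ≤ ‖∑ i, a i • u i‖ := by
  set M : ℝ := ∑ i, |a i| with hM
  have hM0 : 0 ≤ M := Finset.sum_nonneg (fun i _ => abs_nonneg _)
  have hMi : ∀ i, |a i| ≤ M := fun i =>
    Finset.single_le_sum (f := fun i => |a i|) (fun i _ => abs_nonneg _) (Finset.mem_univ i)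
  let s : Fin k → ℝ := fun i => if 0 ≤ a i then 1 else -1
  have hs : ∀ i, s i = 1 ∨ s i = -1 := fun i => by
    by_cases h0 : 0 ≤ a i <;> simp [s, h0]
  have hsa : ∀ i, a i = s i * |a i| := fun i => by
    by_cases h0 : 0 ≤ a i
    · simp [s, h0, abs_of_nonneg h0]
    · simp [s, h0, abs_of_neg (not_le.1 h0)]
  have hsnorm : ∀ i, |s i| = 1 := fun i => by
    rcases hs i with h0 | h0 <;> simp [h0]
  have hident : M • ∑ i, s i • u i = ∑ i, a i • u i + ∑ i, (M - |a i|) • (s i • u i) := by
    rw [Finset.smul_sum, ← Finset.sum_add_distrib]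
    refine Finset.sum_congr rfl (fun i _ => ?_)
    have h0 : a i • u i = (|a i| * s i) • u i := by
      conv_lhs => rw [hsa i, mul_comm]
    rw [h0, sub_smul, smul_smul, smul_smul]
    abel
  have h1 : M * ((k : ℝ) - θ) ≤ ‖M • ∑ i, s i • u i‖ := by
    rw [norm_smul, Real.norm_of_nonneg hM0]
    exact mul_le_mul_of_nonneg_left (h s hs) hM0
  have h2 : ‖∑ i, (M - |a i|) • (s i • u i)‖ ≤ k * M - M := by
    refine (norm_sum_le _ _).trans ?_
    have : ∀ i ∈ (Finset.univ : Finset (Fin k)), ‖(M - |a i|) • (s i • u i)‖ ≤ M - |a i| := by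
      intro i _
      rw [norm_smul, norm_smul, Real.norm_of_nonneg (sub_nonneg.2 (hMi i)), Real.norm_eq_abs,
        hsnorm i, one_mul]
      exact mul_le_of_le_one_right (sub_nonneg.2 (hMi i)) (hu i)
    refine (Finset.sum_le_sum this).trans ?_
    rw [Finset.sum_sub_distrib, Finset.sum_const, Finset.card_univ, Fintype.card_fin,
      nsmul_eq_mul]
  have h3 : ‖M • ∑ i, s i • u i‖ ≤ ‖∑ i, a i • u i‖ + ‖∑ i, (M - |a i|) • (s i • u i)‖ := by
    rw [hident]
    exact norm_add_le _ _
  nlinarith

/-- In a reflexive space a bounded sequence cannot have coordinates tending to zero and stay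
frequently above a positive level for a functional. -/
lemma not_frequently_of_coord (hrefl : IsReflexive X) (b : SchauderBasis ℝ X) {u : ℕ → X}
    (hbd : Bornology.IsBounded (range u))
    (hcoord : ∀ i, Tendsto (fun n => b.coord i (u n)) atTop (𝓝 0))
    (g : StrongDual ℝ X) {δ : ℝ} (hδ : 0 < δ) (hfreq : ∃ᶠ n in atTop, δ ≤ g (u n)) : False := by
  let G : ℕ → Set X := fun N => {x | ∃ n, N ≤ n ∧ δ ≤ g (u n) ∧ x = u n}
  let t : ℕ → Set X := fun N => closure (convexHull ℝ (G N))
  let C : Set X := closure (convexHull ℝ (range u))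
  have hCbd : Bornology.IsBounded C := (isBounded_convexHull.2 hbd).closure
  have hG : ∀ N, G N ⊆ range u := by
    rintro N _ ⟨n, -, -, rfl⟩
    exact ⟨n, rfl⟩
  have hGanti : ∀ N N', N ≤ N' → G N' ⊆ G N := by
    rintro N N' h _ ⟨n, h1, h2, rfl⟩
    exact ⟨n, h.trans h1, h2, rfl⟩
  obtain ⟨z, hz⟩ := (cip_of_reflexive hrefl hCbd).seq t
    (fun N N' h => closure_mono (convexHull_mono (hGanti N N' h)))
    (fun N => by
      obtain ⟨n, hn1, hn2⟩ := (frequently_atTop.1 hfreq) N
      exact ⟨u n, subset_closure (subset_convexHull ℝ _ ⟨n, hn1, hn2, rfl⟩)⟩)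
    (fun N => isClosed_closure) (fun N => (convex_convexHull ℝ _).closure)
    (fun N => closure_mono (convexHull_mono (hG N)))
  rw [mem_iInter] at hz
  have hgz : δ ≤ g z := by
    have hsub : t 0 ⊆ {x | δ ≤ g x} := by
      refine closure_minimal (convexHull_min ?_ ?_) ?_
      · rintro _ ⟨n, -, h2, rfl⟩
        exact h2
      · exact convex_halfSpace_ge g.toLinearMap.isLinear δ
      · exact isClosed_le continuous_const g.continuous
    exact hsub (hz 0)
  have hz0 : z = 0 := by
    refine eq_zero_of_coord b (fun i => ?_)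
    by_contra hne
    have hpos : 0 < |b.coord i z| := abs_pos.2 hne
    have hev : ∀ᶠ n in atTop, |b.coord i (u n)| < |b.coord i z| / 2 := by
      have := (hcoord i).abs
      rw [abs_zero] at this
      exact this.eventually (gt_mem_nhds (by positivity))
    obtain ⟨N, hN⟩ := hev.exists_forall_of_atTop
    have hsub : t N ⊆ (b.coord i) ⁻¹' (Icc (-(|b.coord i z| / 2)) (|b.coord i z| / 2)) := by
      refine closure_minimal (convexHull_min ?_ ?_) ?_
      · rintro _ ⟨n, h1, -, rfl⟩
        exact abs_le.1 (hN n h1).le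
      · exact (convex_Icc _ _).is_linear_preimage (b.coord i).toLinearMap.isLinear
      · exact isClosed_Icc.preimage (b.coord i).continuous
    have := abs_le.2 (hsub (hz N))
    linarith
  rw [hz0, map_zero] at hgz
  linarith

/-- In a reflexive space with a basis, bounded coordinatewise null sequences are weakly null. -/
lemma tendsto_dual_of_coord (hrefl : IsReflexive X) (b : SchauderBasis ℝ X) {u : ℕ → X}
    (hbd : Bornology.IsBounded (range u))
    (hcoord : ∀ i, Tendsto (fun n => b.coord i (u n)) atTop (𝓝 0))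
    (f : StrongDual ℝ X) : Tendsto (fun n => f (u n)) atTop (𝓝 0) := by
  rw [Metric.tendsto_atTop]
  intro δ hδ
  by_contra hnot
  push Not at hnot
  have hfreq : ∃ᶠ n in atTop, δ ≤ |f (u n)| := by
    rw [frequently_atTop]
    intro N
    obtain ⟨n, hn, h⟩ := hnot N
    exact ⟨n, hn, by simpa [Real.dist_eq] using h⟩
  have hor : (∃ᶠ n in atTop, δ ≤ f (u n)) ∨ (∃ᶠ n in atTop, δ ≤ (-f) (u n)) := by
    rw [← frequently_or_distrib]
    refine hfreq.mono (fun n hn => ?_)
    rcases le_abs.1 hn with h | h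
    · exact Or.inl h
    · exact Or.inr (by simpa using h)
  rcases hor with h | h
  · exact not_frequently_of_coord hrefl b hbd hcoord f hδ h
  · exact not_frequently_of_coord hrefl b hbd hcoord (-f) hδ h

/-- **Structure theorem.** A fixed point free nonexpansive self-map of a closed bounded convex
subset of a reflexive space with a suppression 1-unconditional basis produces a weakly null
sequence generating an isometric `ℓ₁` spreading model. -/
theorem exists_l1_model (hrefl : IsReflexive X) {b : SchauderBasis ℝ X} (hs : Supp b 1)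
    {C : Set X} (hne : C.Nonempty) (hcl : IsClosed C) (hbd : Bornology.IsBounded C)
    (hcv : Convex ℝ C) {T : X → X} (hmaps : MapsTo T C C) (hNE : NE T C)
    (hno : ∀ x ∈ C, T x ≠ x) : HasWeaklyNullL1SpreadingModel X := by
  obtain ⟨d, y, ξ, m, hdpos, hy, hξC, hdiam, hcoord, hm, hblock, hl1⟩ :=
    exists_l1plus_block hs (cip_of_reflexive hrefl hbd) hne hcl hbd hcv hmaps hNE hno
  let z : ℕ → X := fun n => ξ n - y
  let u : ℕ → X := fun n => d⁻¹ • (ξ (2 * n) - ξ (2 * n + 1))
  have hu : ∀ n, ‖u n‖ ≤ 1 := by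
    intro n
    rw [norm_smul, norm_inv, Real.norm_of_nonneg hdpos.le, inv_mul_le_iff₀ hdpos, mul_one]
    exact hdiam _ _
  have hubd : Bornology.IsBounded (range u) := by
    refine (Metric.isBounded_closedBall (x := (0 : X)) (r := 1)).subset ?_
    rintro _ ⟨n, rfl⟩
    rw [mem_closedBall_zero_iff]
    exact hu n
  have hucoord : ∀ i, Tendsto (fun n => b.coord i (u n)) atTop (𝓝 0) := by
    intro i
    have h1 : Tendsto (fun n : ℕ => b.coord i (ξ (2 * n) - y)) atTop (𝓝 0) :=
      (hcoord i).comp (tendsto_atTop_mono (fun n => show n ≤ 2 * n by omega) tendsto_id)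
    have h2 : Tendsto (fun n : ℕ => b.coord i (ξ (2 * n + 1) - y)) atTop (𝓝 0) :=
      (hcoord i).comp (tendsto_atTop_mono (fun n => show n ≤ 2 * n + 1 by omega) tendsto_id)
    have h3 := (h1.sub h2).const_mul d⁻¹
    rw [sub_zero, mul_zero] at h3
    refine h3.congr (fun n => ?_)
    simp only [u]
    rw [map_smul, smul_eq_mul, ← map_sub]
    congr 2
    abel
  refine ⟨u, hu, tendsto_dual_of_coord hrefl b hubd hucoord, ?_⟩
  intro k ε hε
  rcases Nat.eq_zero_or_pos k with hk | hk
  · subst hk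
    exact ⟨0, fun n _ _ a => by simp⟩
  have hkpos : (0 : ℝ) < k := by positivity
  obtain ⟨N₁, hN₁⟩ := hl1 k hk (ε / (2 * k)) (by positivity)
  have herr : ∀ᶠ n in atTop,
      ‖(ξ n - y) - PP b (Finset.Ico (m n) (m (n + 1))) (ξ n - y)‖ < ε * d / (4 * k) :=
    hblock.eventually (gt_mem_nhds (by positivity))
  obtain ⟨N₂, hN₂⟩ := herr.exists_forall_of_atTop
  refine ⟨max N₁ N₂, fun n hninj hnge a => ?_⟩
  refine l1_lower_of_signs (fun i => u (n i)) (fun i => hu _) (fun s hsgn => ?_) a
  -- the positive and the negative indices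
  let p : Fin k → ℕ := fun i => 2 * n i + (if s i = 1 then 0 else 1)
  let q : Fin k → ℕ := fun i => 2 * n i + (if s i = 1 then 1 else 0)
  have hpge : ∀ i, max N₁ N₂ ≤ p i := fun i => by
    have := hnge i
    simp only [p]
    omega
  have hqge : ∀ i, max N₁ N₂ ≤ q i := fun i => by
    have := hnge i
    simp only [q]
    omega
  have hpinj : Function.Injective p := by
    intro i i' h
    apply hninj
    simp only [p] at h
    split_ifs at h <;> omega
  have hpq : ∀ i i', p i ≠ q i' := by
    intro i i' h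
    simp only [p, q] at h
    by_cases hii : i = i'
    · subst hii
      split_ifs at h <;> omega
    · have : n i ≠ n i' := fun h' => hii (hninj h')
      split_ifs at h <;> omega
  have hterm : ∀ i, d • (s i • u (n i)) = z (p i) - z (q i) := by
    intro i
    simp only [u, p, q, z]
    rw [smul_smul, smul_smul, mul_assoc, mul_comm (s i), ← mul_assoc, mul_inv_cancel₀ hdpos.ne',
      one_mul]
    rcases hsgn i with h | h
    · simp [h]
    · have : ¬ ((-1 : ℝ) = 1) := by norm_num
      simp [h, this]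
  have h1 := hN₁ p hpinj (fun i => (le_max_left _ _).trans (hpge i))
  have h2 := norm_sum_pos_le hs hm z (η := ε * d / (4 * k)) p q hpq
    (fun i => (hN₂ _ ((le_max_right _ _).trans (hpge i))).le)
    (fun i => (hN₂ _ ((le_max_right _ _).trans (hqge i))).le)
  have h3 : ∑ i, (z (p i) - z (q i)) = d • ∑ i, s i • u (n i) := by
    rw [Finset.smul_sum]
    exact Finset.sum_congr rfl (fun i _ => (hterm i).symm)
  rw [h3, norm_smul, Real.norm_of_nonneg hdpos.le] at h2
  have h4 : (1 - ε / (2 * k)) * (k * d) = k * d - ε * d / 2 := by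
    field_simp
  have h5 : (k : ℝ) * (2 * (ε * d / (4 * k))) = ε * d / 2 := by
    field_simp
    ring
  rw [h4] at h1
  rw [h5] at h2
  have h6 : ((k : ℝ) - ε) * d ≤ d * ‖∑ i, s i • u (n i)‖ := by
    have : ‖∑ i, (ξ (p i) - y)‖ = ‖∑ i, z (p i)‖ := rfl
    rw [this] at h1
    linarith
  rw [mul_comm] at h6
  exact le_of_mul_le_mul_left h6 hdpos

/-- **The FPP in the absence of isometric `ℓ₁` spreading models.** -/
theorem hasFPP_of_no_l1_model (hrefl : IsReflexive X) {b : SchauderBasis ℝ X}
    (hs : Supp b 1) (hno : ¬ HasWeaklyNullL1SpreadingModel X) : HasFPP X := by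
  intro C hne hcl hbd hcv T hT
  refine subtype_fixedPoint (fun T' hmaps hNE => ?_) T hT
  by_contra hfix
  push Not at hfix
  exact hno (exists_l1_model hrefl hs hne hcl hbd hcv hmaps hNE hfix)

end Vale.Agent.Lib.P079
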