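import Mathlib

/-!
# Minimal invariant sets of nonexpansive maps

General machinery of metric fixed point theory (minimal invariant sets, the
Brodskii-Milman / Kirk diametrality lemma, the Goebel-Karlovitz lemma and a sequence version
of the lemma of Lin), written without ultrapowers.
-/

namespace Vale.Agent.Lib.P079

open Set Filter Topology

variable {X : Type*} [NormedAddCommGroup X] [NormedSpace ℝ X]

/-- Downward directed families of nonempty closed convex subsets of `C` have a common point. -/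
def CIP (C : Set X) : Prop :=
  ∀ S : Set (Set X), S.Nonempty → DirectedOn (· ⊇ ·) S →
    (∀ s ∈ S, s.Nonempty ∧ IsClosed s ∧ Convex ℝ s ∧ s ⊆ C) → (⋂₀ S).Nonempty

lemma CIP.mono {C D : Set X} (h : CIP C) (hD : D ⊆ C) : CIP D := by
  intro S hS hdir hall
  exact h S hS hdir (fun s hs => ⟨(hall s hs).1, (hall s hs).2.1, (hall s hs).2.2.1,
    (hall s hs).2.2.2.trans hD⟩)

/-- Sequence version of `CIP`. -/
lemma CIP.seq {C : Set X} (h : CIP C) (t : ℕ → Set X) (hanti : Antitone t)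
    (hne : ∀ n, (t n).Nonempty) (hcl : ∀ n, IsClosed (t n)) (hcv : ∀ n, Convex ℝ (t n))
    (hsub : ∀ n, t n ⊆ C) : (⋂ n, t n).Nonempty := by
  have := h (range t) (range_nonempty t) ?_ ?_
  · rwa [sInter_range] at this
  · rintro _ ⟨a, rfl⟩ _ ⟨b, rfl⟩
    exact ⟨t (max a b), ⟨_, rfl⟩, hanti (le_max_left a b), hanti (le_max_right a b)⟩
  · rintro _ ⟨a, rfl⟩
    exact ⟨hne a, hcl a, hcv a, hsub a⟩

/-- `T` is nonexpansive on `C`. -/
def NE (T : X → X) (C : Set X) : Prop := ∀ a ∈ C, ∀ b ∈ C, ‖T a - T b‖ ≤ ‖a - b‖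

omit [NormedSpace ℝ X] in
lemma NE.mono {T : X → X} {C D : Set X} (h : NE T C) (hD : D ⊆ C) : NE T D :=
  fun a ha b hb => h a (hD ha) b (hD hb)

/-- Nonempty closed convex `T`-invariant sets. -/
structure Inv (T : X → X) (D : Set X) : Prop where
  nonempty : D.Nonempty
  closed : IsClosed D
  convex : Convex ℝ D
  maps : MapsTo T D D

/-- Minimal nonempty closed convex `T`-invariant sets. -/
def MinInv (T : X → X) (K : Set X) : Prop :=
  Inv T K ∧ ∀ D, D ⊆ K → Inv T D → D = K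

lemma exists_minInv {T : X → X} {C : Set X} (hC : CIP C) (hinv : Inv T C) :
    ∃ K, K ⊆ C ∧ MinInv T K := by
  have key : ∀ c ⊆ {D : Set X | D ⊆ C ∧ Inv T D}, IsChain (· ⊆ ·) c → c.Nonempty →
      ∃ lb ∈ {D : Set X | D ⊆ C ∧ Inv T D}, ∀ s ∈ c, lb ⊆ s := by
    intro c hc hchain hcne
    have hdir : DirectedOn (· ⊇ ·) c := by
      intro a ha b hb
      rcases hchain.total ha hb with h | h
      · exact ⟨a, ha, Subset.rfl, h⟩
      · exact ⟨b, hb, h, Subset.rfl⟩
    have hne : (⋂₀ c).Nonempty := hC c hcne hdir (fun s hs =>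
      ⟨(hc hs).2.nonempty, (hc hs).2.closed, (hc hs).2.convex, (hc hs).1⟩)
    obtain ⟨s0, hs0⟩ := hcne
    refine ⟨⋂₀ c, ⟨(sInter_subset_of_mem hs0).trans (hc hs0).1, ⟨hne, ?_, ?_, ?_⟩⟩,
      fun s hs => sInter_subset_of_mem hs⟩
    · exact isClosed_sInter (fun s hs => (hc hs).2.closed)
    · exact convex_sInter (fun s hs => (hc hs).2.convex)
    · intro x hx s hs
      exact (hc hs).2.maps (hx s hs)
  obtain ⟨m, hmC, hm⟩ := zorn_superset_nonempty {D : Set X | D ⊆ C ∧ Inv T D} key C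
    ⟨Subset.rfl, hinv⟩
  refine ⟨m, hmC, hm.prop.2, fun D hD hDinv => ?_⟩
  exact Subset.antisymm hD (hm.le_of_le (y := D) ⟨hD.trans hmC, hDinv⟩ hD)

section minimal

variable {T : X → X} {K : Set X}

/-- A closed convex set containing `T '' K` contains the minimal set `K`. -/
lemma MinInv.subset_of_image_subset (hK : MinInv T K) {E : Set X} (hEc : IsClosed E)
    (hEv : Convex ℝ E) (hE : T '' K ⊆ E) : K ⊆ E := by
  have hinv : Inv T (K ∩ E) := by
    refine ⟨?_, hK.1.closed.inter hEc, hK.1.convex.inter hEv, ?_⟩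
    · obtain ⟨x, hx⟩ := hK.1.nonempty
      exact ⟨T x, hK.1.maps hx, hE ⟨x, hx, rfl⟩⟩
    · intro x hx
      exact ⟨hK.1.maps hx.1, hE ⟨x, hx.1, rfl⟩⟩
  have := hK.2 (K ∩ E) inter_subset_left hinv
  intro x hx
  rw [← this] at hx
  exact hx.2

/-- Minimal invariant sets are diametral. -/
lemma MinInv.diametral (hK : MinInv T K) (hT : NE T K) {y : X} (hy : y ∈ K) {r : ℝ}
    (h : ∀ z ∈ K, ‖y - z‖ ≤ r) : ∀ u ∈ K, ∀ v ∈ K, ‖u - v‖ ≤ r := by
  have hD : Inv T {u | u ∈ K ∧ ∀ z ∈ K, ‖u - z‖ ≤ r} := by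
    refine ⟨⟨y, hy, h⟩, ?_, ?_, ?_⟩
    · have : {u | u ∈ K ∧ ∀ z ∈ K, ‖u - z‖ ≤ r} = K ∩ ⋂ z ∈ K, {u | ‖u - z‖ ≤ r} := by
        ext u; simp
      rw [this]
      refine hK.1.closed.inter (isClosed_biInter fun z _ => ?_)
      exact isClosed_le (by fun_prop) continuous_const
    · intro a ha b hb s t hs ht hst
      refine ⟨hK.1.convex ha.1 hb.1 hs ht hst, fun z hz => ?_⟩
      have : s • a + t • b - z = s • (a - z) + t • (b - z) := by
        have : z = (s + t) • z := by rw [hst, one_smul]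
        nth_rewrite 1 [this]
        module
      rw [this]
      calc ‖s • (a - z) + t • (b - z)‖ ≤ ‖s • (a - z)‖ + ‖t • (b - z)‖ := norm_add_le _ _
        _ = s * ‖a - z‖ + t * ‖b - z‖ := by
            rw [norm_smul, norm_smul, Real.norm_of_nonneg hs, Real.norm_of_nonneg ht]
        _ ≤ s * r + t * r := by
            gcongr
            · exact ha.2 z hz
            · exact hb.2 z hz
        _ = r := by rw [← add_mul, hst, one_mul]
    · intro u hu
      refine ⟨hK.1.maps hu.1, ?_⟩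
      have hsub : K ⊆ Metric.closedBall (T u) r := by
        refine hK.subset_of_image_subset Metric.isClosed_closedBall (convex_closedBall _ _) ?_
        rintro _ ⟨z, hz, rfl⟩
        rw [mem_closedBall_iff_norm]
        exact (hT z hz u hu.1).trans (by rw [norm_sub_rev]; exact hu.2 z hz)
      intro z hz
      have := hsub hz
      rw [mem_closedBall_iff_norm, norm_sub_rev] at this
      exact this
  have := hK.2 _ (fun u hu => hu.1) hD
  intro u hu v hv
  rw [← this] at hu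
  exact hu.2 v hv

/-- Convexity estimate used repeatedly. -/
lemma norm_sub_convex_le {a b z : X} {s t r : ℝ} (hs : 0 ≤ s) (ht : 0 ≤ t) (hst : s + t = 1)
    (ha : ‖a - z‖ ≤ r) (hb : ‖b - z‖ ≤ r) : ‖s • a + t • b - z‖ ≤ r := by
  have : s • a + t • b - z = s • (a - z) + t • (b - z) := by
    have : z = (s + t) • z := by rw [hst, one_smul]
    nth_rewrite 1 [this]
    module
  rw [this]
  calc ‖s • (a - z) + t • (b - z)‖ ≤ ‖s • (a - z)‖ + ‖t • (b - z)‖ := norm_add_le _ _
    _ = s * ‖a - z‖ + t * ‖b - z‖ := by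
        rw [norm_smul, norm_smul, Real.norm_of_nonneg hs, Real.norm_of_nonneg ht]
    _ ≤ s * r + t * r := by gcongr
    _ = r := by rw [← add_mul, hst, one_mul]

/-- The Goebel-Karlovitz lemma: an approximate fixed point sequence in a minimal invariant set
cannot stay at distance `≤ s` from a point of the set unless the whole set has diameter `≤ s`. -/
lemma MinInv.goebel_karlovitz (hK : MinInv T K) (hT : NE T K) (hC : CIP K)
    {y : ℕ → X} (hy : ∀ m, y m ∈ K) (hafps : Tendsto (fun m => ‖y m - T (y m)‖) atTop (𝓝 0))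
    {x : X} (hx : x ∈ K) {s : ℝ} (hs : ∀ m, ‖y m - x‖ ≤ s) :
    ∀ u ∈ K, ∀ v ∈ K, ‖u - v‖ ≤ s := by
  have hD : Inv T {z | z ∈ K ∧ ∀ ε > 0, ∀ᶠ m in atTop, ‖y m - z‖ ≤ s + ε} := by
    refine ⟨⟨x, hx, fun ε hε => Eventually.of_forall fun m => by linarith [hs m]⟩, ?_, ?_, ?_⟩
    · apply isClosed_of_closure_subset
      intro z hz
      refine ⟨hK.1.closed.closure_subset_iff.2 (fun u hu => hu.1) hz, fun ε hε => ?_⟩
      obtain ⟨b, hb, hzb⟩ := Metric.mem_closure_iff.1 hz (ε / 2) (by positivity)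
      filter_upwards [hb.2 (ε / 2) (by positivity)] with m hm
      have h1 : ‖y m - z‖ ≤ ‖y m - b‖ + ‖b - z‖ := by
        have : y m - z = (y m - b) + (b - z) := by abel
        rw [this]; exact norm_add_le _ _
      have h2 : ‖b - z‖ < ε / 2 := by rw [← dist_eq_norm, dist_comm]; exact hzb
      linarith
    · intro a ha b hb p q hp hq hpq
      refine ⟨hK.1.convex ha.1 hb.1 hp hq hpq, fun ε hε => ?_⟩
      filter_upwards [ha.2 ε hε, hb.2 ε hε] with m h1 h2
      rw [norm_sub_rev] at h1 h2 ⊢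
      exact norm_sub_convex_le hp hq hpq h1 h2
    · intro z hz
      refine ⟨hK.1.maps hz.1, fun ε hε => ?_⟩
      have h0 : ∀ᶠ m in atTop, ‖y m - T (y m)‖ < ε / 2 :=
        hafps.eventually (gt_mem_nhds (by positivity))
      filter_upwards [hz.2 (ε / 2) (by positivity), h0] with m h1 h2
      have h3 : ‖y m - T z‖ ≤ ‖y m - T (y m)‖ + ‖T (y m) - T z‖ := by
        have : y m - T z = (y m - T (y m)) + (T (y m) - T z) := by abel
        rw [this]; exact norm_add_le _ _
      have h4 := hT (y m) (hy m) z hz.1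
      linarith
  have hDK := hK.2 _ (fun u hu => hu.1) hD
  have hall : ∀ z ∈ K, ∀ ε > 0, ∀ᶠ m in atTop, ‖y m - z‖ ≤ s + ε := by
    intro z hz
    rw [← hDK] at hz
    exact hz.2
  have hanti : Antitone (fun m => closedConvexHull ℝ (y '' Ici m)) := by
    intro a b hab
    exact closedConvexHull_min ((image_mono (Ici_subset_Ici.2 hab)).trans
      subset_closedConvexHull) convex_closedConvexHull isClosed_closedConvexHull
  have hsubK : ∀ m, closedConvexHull ℝ (y '' Ici m) ⊆ K := by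
    intro m
    exact closedConvexHull_min (by rintro _ ⟨j, _, rfl⟩; exact hy j) hK.1.convex hK.1.closed
  obtain ⟨p, hp⟩ := hC.seq (fun m => closedConvexHull ℝ (y '' Ici m)) hanti
    (fun m => ⟨y m, subset_closedConvexHull ⟨m, self_mem_Ici, rfl⟩⟩)
    (fun m => isClosed_closedConvexHull) (fun m => convex_closedConvexHull) hsubK
  rw [mem_iInter] at hp
  have hpK : p ∈ K := hsubK 0 (hp 0)
  refine hK.diametral hT hpK (fun z hz => ?_)
  refine le_of_forall_pos_le_add (fun ε hε => ?_)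
  obtain ⟨m, hm⟩ := (hall z hz ε hε).exists_forall_of_atTop
  have : closedConvexHull ℝ (y '' Ici m) ⊆ Metric.closedBall z (s + ε) := by
    refine closedConvexHull_min ?_ (convex_closedBall _ _) Metric.isClosed_closedBall
    rintro _ ⟨j, hj, rfl⟩
    rw [mem_closedBall_iff_norm]
    exact hm j hj
  have := this (hp m)
  rwa [mem_closedBall_iff_norm] at this

/-- Inside a nonempty, convex, `T`-invariant family `W` of `K`-valued functions there are
functions that are uniformly almost fixed by `T`. -/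
lemma exists_almost_fixed {ι : Type*} (hT : NE T K) {M : ℝ}
    (hM : ∀ u ∈ K, ∀ v ∈ K, ‖u - v‖ ≤ M)
    {W : Set (ι → X)} (hWne : W.Nonempty) (hWK : ∀ w ∈ W, ∀ j, w j ∈ K)
    (hWconv : ∀ w ∈ W, ∀ w' ∈ W, ∀ t : ℝ, 0 ≤ t → t ≤ 1 →
      (fun j => (1 - t) • w j + t • w' j) ∈ W)
    (hWT : ∀ w ∈ W, (fun j => T (w j)) ∈ W) {ε : ℝ} (hε : 0 < ε) :
    ∃ w ∈ W, ∀ j, ‖w j - T (w j)‖ ≤ ε := by
  obtain ⟨w0, hw0⟩ := hWne
  set N : ℝ := |M| + 1 with hN
  have hNpos : 0 < N := by positivity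
  have hMN : M ≤ N := by rw [hN]; linarith [le_abs_self M]
  set t : ℝ := min 1 (ε / (2 * N)) with ht
  have ht0 : 0 < t := lt_min one_pos (by positivity)
  have ht1 : t ≤ 1 := min_le_left _ _
  have htN : t * N ≤ ε / 2 := by
    have : t ≤ ε / (2 * N) := min_le_right _ _
    calc t * N ≤ ε / (2 * N) * N := by gcongr
      _ = ε / 2 := by field_simp
  obtain ⟨n, hn⟩ := exists_pow_lt_of_lt_one (show 0 < ε / (2 * N) by positivity)
    (show 1 - t < 1 by linarith)
  have hnN : (1 - t) ^ n * N ≤ ε / 2 := by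
    calc (1 - t) ^ n * N ≤ ε / (2 * N) * N := by gcongr
      _ = ε / 2 := by field_simp
  let y : ℕ → ι → X := fun n => Nat.rec w0 (fun _ w => fun j => (1 - t) • T (w j) + t • w0 j) n
  have hy0 : y 0 = w0 := rfl
  have hys : ∀ n, y (n + 1) = fun j => (1 - t) • T (y n j) + t • w0 j := fun n => rfl
  have hyW : ∀ n, y n ∈ W := by
    intro n
    induction n with
    | zero => exact hw0
    | succ n ih =>
      rw [hys]
      exact hWconv _ (hWT _ ih) _ hw0 t ht0.le ht1
  have hstep : ∀ n j, ‖y (n + 1) j - y n j‖ ≤ (1 - t) ^ n * N := by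
    intro n
    induction n with
    | zero =>
      intro j
      simpa using (hM _ (hWK _ (hyW 1) j) _ (hWK _ (hyW 0) j)).trans hMN
    | succ n ih =>
      intro j
      have : y (n + 1 + 1) j - y (n + 1) j = (1 - t) • (T (y (n + 1) j) - T (y n j)) := by
        rw [hys (n + 1), hys n]
        simp only
        module
      rw [this, norm_smul, Real.norm_of_nonneg (by linarith), pow_succ, mul_assoc, mul_comm]
      have h1 := hT _ (hWK _ (hyW (n + 1)) j) _ (hWK _ (hyW n) j)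
      have h2 := ih j
      calc ‖T (y (n + 1) j) - T (y n j)‖ * (1 - t) ≤ ((1 - t) ^ n * N) * (1 - t) := by
            apply mul_le_mul_of_nonneg_right (h1.trans h2) (by linarith)
        _ = (1 - t) ^ n * ((1 - t) * N) := by ring
  refine ⟨y n, hyW n, fun j => ?_⟩
  have h1 : y n j - T (y n j) = (y n j - y (n + 1) j) + t • (w0 j - T (y n j)) := by
    rw [hys n]
    simp only
    module
  have h2 : ‖w0 j - T (y n j)‖ ≤ N :=
    (hM _ (hWK _ hw0 j) _ (hWK _ (hWT _ (hyW n)) j)).trans hMN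
  calc ‖y n j - T (y n j)‖ ≤ ‖y n j - y (n + 1) j‖ + ‖t • (w0 j - T (y n j))‖ := by
        rw [h1]; exact norm_add_le _ _
    _ ≤ (1 - t) ^ n * N + t * N := by
        rw [norm_smul, Real.norm_of_nonneg ht0.le, norm_sub_rev]
        gcongr
        exact hstep n j
    _ ≤ ε := by linarith

/-- A sequence version of the lemma of Lin: a nonempty, convex, `T`-invariant family `W` of
`K`-valued functions cannot stay (somewhere) within distance `s` of a point of the minimal set `K`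
unless `K` has diameter at most `s`. -/
lemma MinInv.lin {ι : Type*} (hK : MinInv T K) (hT : NE T K) (hC : CIP K) {M : ℝ}
    (hM : ∀ u ∈ K, ∀ v ∈ K, ‖u - v‖ ≤ M)
    {W : Set (ι → X)} (hWne : W.Nonempty) (hWK : ∀ w ∈ W, ∀ j, w j ∈ K)
    (hWconv : ∀ w ∈ W, ∀ w' ∈ W, ∀ t : ℝ, 0 ≤ t → t ≤ 1 →
      (fun j => (1 - t) • w j + t • w' j) ∈ W)
    (hWT : ∀ w ∈ W, (fun j => T (w j)) ∈ W)
    {x : X} (hx : x ∈ K) {s : ℝ} (hs : ∀ w ∈ W, ∃ j, ‖w j - x‖ ≤ s) :
    ∀ u ∈ K, ∀ v ∈ K, ‖u - v‖ ≤ s := by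
  have h1 : ∀ m : ℕ, ∃ w ∈ W, ∀ j, ‖w j - T (w j)‖ ≤ 1 / ((m : ℝ) + 1) := fun m =>
    exists_almost_fixed hT hM hWne hWK hWconv hWT (by positivity)
  choose w hwW hw using h1
  have h2 : ∀ m : ℕ, ∃ j, ‖w m j - x‖ ≤ s := fun m => hs _ (hwW m)
  choose j hj using h2
  refine hK.goebel_karlovitz hT hC (y := fun m => w m (j m)) (fun m => hWK _ (hwW m) _) ?_ hx hj
  refine squeeze_zero (fun m => norm_nonneg _) (fun m => hw m (j m)) ?_
  exact tendsto_one_div_add_atTop_nhds_zero_nat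

end minimal

end Vale.Agent.Lib.P079
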