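import Vale.Agent.Lib.P079.BConvex

/-!
# Failure of the FPP in a space with a suppression 1-unconditional basis forces an isometric
positive `ℓ₁` spreading model; the Banach-Saks property therefore implies the FPP
-/

namespace Vale.Agent.Lib.P079

open Set Filter Topology

variable {X : Type*} [NormedAddCommGroup X] [NormedSpace ℝ X]

/-- **Structure theorem** (with the block information). -/
theorem exists_l1plus_block {b : SchauderBasis ℝ X} (hs : Supp b 1) {C : Set X}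
    (hCIP : CIP C) (hne : C.Nonempty) (hcl : IsClosed C) (hbd : Bornology.IsBounded C)
    (hcv : Convex ℝ C) {T : X → X} (hmaps : MapsTo T C C) (hNE : NE T C)
    (hno : ∀ x ∈ C, T x ≠ x) :
    ∃ (d : ℝ) (y : X) (ξ : ℕ → X) (m : ℕ → ℕ), 0 < d ∧ y ∈ C ∧ (∀ n, ξ n ∈ C) ∧
      (∀ n m, ‖ξ n - ξ m‖ ≤ d) ∧
      (∀ i, Tendsto (fun n => b.coord i (ξ n - y)) atTop (𝓝 0)) ∧ StrictMono m ∧
      Tendsto (fun j => ‖(ξ j - y) - PP b (Finset.Ico (m j) (m (j + 1))) (ξ j - y)‖)
        atTop (𝓝 0) ∧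
      ∀ k : ℕ, 0 < k → ∀ ε : ℝ, 0 < ε → ∃ N : ℕ, ∀ n : Fin k → ℕ, Function.Injective n →
        (∀ i, N ≤ n i) → (1 - ε) * (k * d) ≤ ‖∑ i, (ξ (n i) - y)‖ := by
  obtain ⟨K, hKC, hK⟩ := exists_minInv hCIP ⟨hne, hcl, hcv, hmaps⟩
  have hTK : NE T K := hNE.mono hKC
  have hCK : CIP K := hCIP.mono hKC
  have hbdK : Bornology.IsBounded K := hbd.subset hKC
  set d := Metric.diam K with hddef
  have hd : ∀ u ∈ K, ∀ v ∈ K, ‖u - v‖ ≤ d := fun u hu v hv => by
    rw [← dist_eq_norm]; exact Metric.dist_le_diam_of_mem hbdK hu hv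
  obtain ⟨p, hp⟩ := hK.1.nonempty
  have hdpos : 0 < d := by
    rcases (Metric.diam_nonneg (s := K)).lt_or_eq with h | h
    · exact h
    · exfalso
      have h1 := hd _ (hK.1.maps hp) _ hp
      rw [hddef, ← h] at h1
      exact hno p (hKC hp) (sub_eq_zero.1 (norm_le_zero_iff.1 h1))
  have hdiam : ∀ s : ℝ, (∀ u ∈ K, ∀ v ∈ K, ‖u - v‖ ≤ s) → d ≤ s := by
    intro s h
    refine Metric.diam_le_of_forall_dist_le ?_ (fun u hu v hv => by
      rw [dist_eq_norm]; exact h u hu v hv)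
    simpa using h p hp p hp
  obtain ⟨y, ξ, m, hy, hξK, hm, hafps, hblock, hcoord⟩ := hK.exists_block_afps b hTK hCK hbdK
  refine ⟨d, y, ξ, m, hdpos, hKC hy, fun n => hKC (hξK n), fun n m => hd _ (hξK n) _ (hξK m),
    hcoord, hm, hblock, ?_⟩
  intro k hk ε hε
  have hkpos : (0 : ℝ) < k := by positivity
  by_contra hnot
  push Not at hnot
  choose n hninj hnge hnlt using hnot
  have hfreq : ∃ᶠ j in atTop, ‖(k : ℝ)⁻¹ • ∑ i, ξ (n j i) - y‖ ≤ (1 - ε) * d := by
    refine Frequently.of_forall (fun j => ?_)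
    have h1 : (k : ℝ)⁻¹ • ∑ i, ξ (n j i) - y = (k : ℝ)⁻¹ • ∑ i, (ξ (n j i) - y) := by
      simp only [Finset.sum_sub_distrib, Finset.sum_const, Finset.card_univ, Fintype.card_fin,
        smul_sub]
      rw [← Nat.cast_smul_eq_nsmul ℝ, smul_smul, inv_mul_cancel₀ hkpos.ne', one_smul]
    rw [h1, norm_smul, norm_inv, Real.norm_of_nonneg hkpos.le, inv_mul_le_iff₀ hkpos]
    have := (hnlt j).le
    linarith
  have h1 := hK.average_large hs zero_le_one hTK hCK hd hy hξK hm hafps hblock hk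
    (fun i j => n j i) (fun i => tendsto_atTop_mono (fun j => hnge j i) tendsto_id)
    (fun j => hninj j) hfreq
  have h2 := hdiam _ h1
  rw [one_mul, le_div_iff₀ hkpos] at h2
  nlinarith

/-- **Structure theorem.** -/
theorem exists_l1plus {b : SchauderBasis ℝ X} (hs : Supp b 1) {C : Set X}
    (hCIP : CIP C) (hne : C.Nonempty) (hcl : IsClosed C) (hbd : Bornology.IsBounded C)
    (hcv : Convex ℝ C) {T : X → X} (hmaps : MapsTo T C C) (hNE : NE T C)
    (hno : ∀ x ∈ C, T x ≠ x) :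
    ∃ (d : ℝ) (y : X) (ξ : ℕ → X), 0 < d ∧ y ∈ C ∧ (∀ n, ξ n ∈ C) ∧ (∀ n m, ‖ξ n - ξ m‖ ≤ d) ∧
      (∀ i, Tendsto (fun n => b.coord i (ξ n - y)) atTop (𝓝 0)) ∧
      ∀ k : ℕ, 0 < k → ∀ ε : ℝ, 0 < ε → ∃ N : ℕ, ∀ n : Fin k → ℕ, Function.Injective n →
        (∀ i, N ≤ n i) → (1 - ε) * (k * d) ≤ ‖∑ i, (ξ (n i) - y)‖ := by
  obtain ⟨d, y, ξ, m, h1, h2, h3, h4, h5, -, -, h6⟩ :=
    exists_l1plus_block hs hCIP hne hcl hbd hcv hmaps hNE hno
  exact ⟨d, y, ξ, h1, h2, h3, h4, h5, h6⟩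

/-- A vector all of whose coordinates vanish is zero. -/
lemma eq_zero_of_coord (b : SchauderBasis ℝ X) {x : X} (h : ∀ i, b.coord i x = 0) : x = 0 := by
  have h1 := SchauderBasis.tendsto_proj b x
  have h2 : (fun n => SchauderBasis.proj b n x) = fun _ => (0 : X) := by
    funext n
    simp [SchauderBasis.proj_apply, h]
  rw [h2] at h1
  exact tendsto_nhds_unique h1 tendsto_const_nhds

/-- **The Banach-Saks property and a suppression 1-unconditional basis give fixed points.** -/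
theorem exists_fixedPoint_of_banachSaks {b : SchauderBasis ℝ X} (hs : Supp b 1)
    (hBS : HasBanachSaks X) {C : Set X}
    (hCIP : CIP C) (hne : C.Nonempty) (hcl : IsClosed C) (hbd : Bornology.IsBounded C)
    (hcv : Convex ℝ C) {T : X → X} (hmaps : MapsTo T C C) (hNE : NE T C) :
    ∃ x ∈ C, T x = x := by
  by_contra hno
  push Not at hno
  obtain ⟨d, y, ξ, hdpos, hy, hξC, hdiam, hcoord, hl1⟩ :=
    exists_l1plus hs hCIP hne hcl hbd hcv hmaps hNE hno
  -- thresholds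
  have hN : ∀ k : ℕ, ∃ N : ℕ, 0 < k → ∀ n : Fin k → ℕ, Function.Injective n →
      (∀ i, N ≤ n i) → (1 - 1 / 2 : ℝ) * (k * d) ≤ ‖∑ i, (ξ (n i) - y)‖ := by
    intro k
    by_cases hk : 0 < k
    · obtain ⟨N, hN⟩ := hl1 k hk (1 / 2) (by norm_num)
      exact ⟨N, fun _ => hN⟩
    · exact ⟨0, fun h => absurd h hk⟩
  choose Nk hNk using hN
  let q : ℕ → ℕ := fun j => j + (Finset.range (j + 1)).sup Nk
  have hqmono : StrictMono q := by
    refine strictMono_nat_of_lt_succ (fun j => ?_)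
    have : (Finset.range (j + 1)).sup Nk ≤ (Finset.range (j + 1 + 1)).sup Nk :=
      Finset.sup_mono (Finset.range_subset_range.2 (Nat.le_succ _))
    show j + _ < j + 1 + _
    omega
  have hqge : ∀ k j, k ≤ j → Nk k ≤ q j := by
    intro k j hkj
    have : Nk k ≤ (Finset.range (j + 1)).sup Nk :=
      Finset.le_sup (f := Nk) (Finset.mem_range.2 (Nat.lt_succ_of_le hkj))
    show Nk k ≤ j + _
    omega
  let v : ℕ → X := fun j => ξ (q j) - y
  have hvbd : Bornology.IsBounded (range v) := by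
    obtain ⟨R, hR⟩ := hbd.exists_norm_le
    refine (Metric.isBounded_closedBall (x := (0 : X)) (r := R + R)).subset ?_
    rintro _ ⟨j, rfl⟩
    rw [mem_closedBall_zero_iff]
    exact (norm_sub_le _ _).trans (add_le_add (hR _ (hξC _)) (hR _ hy))
  obtain ⟨φ, hφ, L, hL⟩ := hBS v hvbd
  -- the limit is zero
  have hL0 : L = 0 := by
    refine eq_zero_of_coord b (fun i => ?_)
    have h1 : Tendsto (fun s => b.coord i (v (φ s))) atTop (𝓝 0) :=
      (hcoord i).comp (hqmono.tendsto_atTop.comp hφ.tendsto_atTop)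
    have h2 := h1.cesaro
    have h3 : Tendsto (fun N : ℕ => b.coord i (((N : ℝ))⁻¹ • ∑ s ∈ Finset.range N, v (φ s)))
        atTop (𝓝 (b.coord i L)) := ((b.coord i).continuous.tendsto L).comp hL
    have h4 : (fun N : ℕ => b.coord i (((N : ℝ))⁻¹ • ∑ s ∈ Finset.range N, v (φ s)))
        = fun N : ℕ => ((N : ℝ))⁻¹ * ∑ s ∈ Finset.range N, b.coord i (v (φ s)) := by
      funext N
      rw [map_smul, map_sum, smul_eq_mul]
    rw [h4] at h3
    exact tendsto_nhds_unique h3 h2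
  subst hL0
  -- block averages tend to zero
  let Cm : ℕ → X := fun N => ((N : ℝ))⁻¹ • ∑ s ∈ Finset.range N, v (φ s)
  have hC2 : Tendsto (fun N : ℕ => Cm (2 * N)) atTop (𝓝 0) :=
    hL.comp (tendsto_atTop_mono (fun N => show N ≤ 2 * N by omega) tendsto_id)
  have hlim : Tendsto (fun N : ℕ => ‖(2 : ℝ) • Cm (2 * N) - Cm N‖) atTop (𝓝 0) := by
    have := ((hC2.const_smul (2 : ℝ)).sub hL).norm
    simpa using this
  have hlow : ∀ N : ℕ, 0 < N → d / 2 ≤ ‖(2 : ℝ) • Cm (2 * N) - Cm N‖ := by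
    intro N hNpos
    have hNR : (0 : ℝ) < N := by positivity
    have h1 : (2 : ℝ) • Cm (2 * N) - Cm N
        = ((N : ℝ))⁻¹ • ∑ s ∈ Finset.Ico N (2 * N), v (φ s) := by
      have hsplit := Finset.sum_range_add_sum_Ico (fun s => v (φ s)) (show N ≤ 2 * N by omega)
      simp only [Cm]
      rw [← hsplit, smul_smul]
      have : (2 : ℝ) * ((2 * N : ℕ) : ℝ)⁻¹ = ((N : ℝ))⁻¹ := by
        push_cast
        field_simp
      rw [this, smul_add]
      abel
    have h2 : ∑ s ∈ Finset.Ico N (2 * N), v (φ s) = ∑ i : Fin N, (ξ (q (φ (N + i))) - y) := by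
      rw [Finset.sum_Ico_eq_sum_range, show 2 * N - N = N by omega, Finset.sum_range]
    have h3 := hNk N hNpos (fun i : Fin N => q (φ (N + i)))
      (fun i i' h => by
        have := hφ.injective (hqmono.injective h)
        exact Fin.ext (by omega))
      (fun i => hqge N _ (by
        have := hφ.le_apply (x := N + (i : ℕ))
        omega))
    rw [h1, h2, norm_smul, norm_inv, Real.norm_of_nonneg hNR.le, le_inv_mul_iff₀ hNR]
    linarith
  have hev : ∀ᶠ N : ℕ in atTop, ‖(2 : ℝ) • Cm (2 * N) - Cm N‖ < d / 2 :=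
    hlim.eventually (gt_mem_nhds (by positivity))
  obtain ⟨N, hN1, hN2⟩ := (hev.and (eventually_gt_atTop 0)).exists
  exact absurd (hlow N hN2) (not_le.2 hN1)

theorem hasFPP_of_banachSaks (hrefl : IsReflexive X) {b : SchauderBasis ℝ X}
    (hs : Supp b 1) (hBS : HasBanachSaks X) : HasFPP X := by
  intro C hne hcl hbd hcv T hT
  refine subtype_fixedPoint (fun T' hmaps hNE => ?_) T hT
  exact exists_fixedPoint_of_banachSaks hs hBS (cip_of_reflexive hrefl hbd) hne hcl hbd hcv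
    hmaps hNE

end Vale.Agent.Lib.P079
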